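import Vale.Agent.P233.H343.Reg

set_option linter.all false

open MeasureTheory Filter Topology Set
open scoped ENNReal NNReal

universe u

namespace Vale.Agent.P233.H343

variable {M : Type u} [MeasurableSpace M] {m : Measure M} {C : Calc m}

/-- The static part of `d/dt ∫ ρ ω²`, `ρ = exp L`, `ω = exp F - 1`, `φ = θ + (ε/2) L`. -/
theorem b8a_stat (hC : IsGamma C) {κ : ℝ} (hB : C.BEi κ) {L θ F φ : M →ₘ[m] ℝ} {ε : ℝ}
    (hL : L ∈ C.TestI) (hθ : θ ∈ C.TestI) (hF : F ∈ C.TestI) (hφ : φ = θ + (ε / 2) • L) :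
    I (-(ex L * C.lap θ + C.Γ θ (ex L - 1)) * ((ex F - 1) * (ex F - 1)) + ex L *
      ((-((ε / 2) • C.lap (ex F - 1)) - C.Γ φ (ex F - 1)) * (ex F - 1)
        + (ex F - 1) * (-((ε / 2) • C.lap (ex F - 1)) - C.Γ φ (ex F - 1)))) =
      ε * I (ex L * C.Γ (ex F - 1) (ex F - 1)) := by
  have hD := hC.toIsDir
  obtain ⟨rT, rΓ, -⟩ := ex_testI hC hB hL
  obtain ⟨wT, wΓ, -⟩ := ex_testI hC hB hF
  set ω : M →ₘ[m] ℝ := ex F - 1 with hω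
  have er : ex L = 1 + (ex L - 1) := by ring
  have rA := hC.test_A rT.1
  have rL := hC.test_Γ_top rT.1
  have LA := hC.test_A hL.1
  have θA := hC.test_A hθ.1
  have ωA := hC.test_A wT.1
  have θl := hC.test_isLap hθ.1
  have ωl := hC.test_isLap wT.1
  have et : MemLp (ex L) ∞ m := ex_top LA.2
  have ωω := hD.mul_mem_A ωA ωA
  have a1 := ibp hC rA rL θl ωω.1
  have a2 := ibp hC rA rL ωl ωA.1
  rw [← er] at a1 a2
  rw [rΓ _ ωA.1] at a2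
  have g1 : C.Γ θ (ω * ω) = (2 : ℝ) • (ω * C.Γ θ ω) := by
    rw [hD.Γ_mul_right ωA ωA θA.1]
    algebra
  have g2 : C.Γ φ ω = C.Γ θ ω + (ε / 2) • C.Γ L ω := by
    rw [hφ, hC.add_left _ θA.1 _ (hC.smul_mem _ _ LA.1) _ ωA.1, hC.smul_left _ _ LA.1 _ ωA.1]
  have mθω : MemLp (C.Γ θ ω) 2 m := hC.memLp _ (hC.Γ_mem hB hθ.1 wT.1).1
  have mLω : MemLp (C.Γ L ω) 2 m := hC.memLp _ (hC.Γ_mem hB hL.1 wT.1).1
  have mlθ : MemLp (C.lap θ) 2 m := θl.2.1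
  have mlω : MemLp (C.lap ω) 2 m := ωl.2.1
  have mω : MemLp ω 2 m := hC.memLp _ ωA.1
  have mΓθr : MemLp (C.Γ θ (ex L - 1)) 2 m := hC.memLp _ (hC.Γ_mem hB hθ.1 rT.1).1
  have n1 : MemLp ((ω * ω) * (C.Γ (ex L - 1) θ + ex L * C.lap θ) : M →ₘ[m] ℝ) 1 m := by
    refine mem_mul_22 (hC.memLp _ ωω.1) (mem_add ?_ (mem_mul_top et mlθ))
    rw [hC.symm _ rA.1 _ θA.1]; exact mΓθr
  have n2 : MemLp (ex L * (ω * C.Γ θ ω) : M →ₘ[m] ℝ) 1 m := mem_mul_top et (mem_mul_22 mω mθω)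
  have n3 : MemLp (ω * (ex L * C.Γ L ω + ex L * C.lap ω) : M →ₘ[m] ℝ) 1 m :=
    mem_mul_22 mω (mem_add (mem_mul_top et mLω) (mem_mul_top et mlω))
  have e : -(ex L * C.lap θ + C.Γ θ (ex L - 1)) * (ω * ω) + ex L *
      ((-((ε / 2) • C.lap ω) - C.Γ φ ω) * ω + ω * (-((ε / 2) • C.lap ω) - C.Γ φ ω))
      = -((ω * ω) * (C.Γ (ex L - 1) θ + ex L * C.lap θ)) - (2 : ℝ) • (ex L * (ω * C.Γ θ ω))
        - ε • (ω * (ex L * C.Γ L ω + ex L * C.lap ω)) := by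
    rw [g2, hC.symm _ rA.1 _ θA.1]
    algebra
  rw [e, I_sub (mem_sub (mem_neg n1) (mem_smul _ n2)) (mem_smul _ n3),
    I_sub (mem_neg n1) (mem_smul _ n2), I_neg, I_smul, I_smul, ← a1, g1, mul_smul_comm, I_smul]
  rw [a2]
  ring

theorem blk_B8a : Blk_B8a.{u} := by
  intro M _ m _ C K hC hB ε a b φ φ2 u hR hR2
  have hD := hC.toIsDir
  have bd := reg_bd hC hB hR
  have bd2 := reg_bd hC hB hR2
  have hε := hR.hε.ne'
  -- `F = (φ2 - φ)/ε`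
  have FT : ∀ t ∈ Icc a b, LL ε φ2 φ t ∈ C.TestI := by
    intro t ht
    unfold LL
    have h2 := hC.testI_smul hB ε⁻¹ (hC.testI_add hB (hR2.φ_mem t ht)
      (hC.testI_smul hB (-1) (hR.φ_mem t ht)))
    have e : φ2 t + (-1 : ℝ) • φ t = φ2 t - φ t := by rw [neg_smul, one_smul]; ring
    rwa [e] at h2
  have FA : ∀ t ∈ Icc a b, LL ε φ2 φ t ∈ C.A := fun t ht => hC.test_A (FT t ht).1
  have ωT : ∀ t ∈ Icc a b, rh ε φ2 φ t - 1 ∈ C.TestI := fun t ht =>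
    (ex_testI hC hB (FT t ht)).1
  have ωA : ∀ t ∈ Icc a b, rh ε φ2 φ t - 1 ∈ C.A := fun t ht => hC.test_A (ωT t ht).1
  have bF : BdS (LL ε φ2 φ) (Icc a b) := (bd2.1.sub bd.1).smul _
  have bω : BdS (fun t => rh ε φ2 φ t - 1) (Icc a b) := by
    obtain ⟨K, hK⟩ := bF
    refine ⟨Real.exp K + 1, fun r hr => ?_⟩
    have e : rh ε φ2 φ r = ex (LL ε φ2 φ r) := rfl
    filter_upwards [hK r hr, ex_ae (LL ε φ2 φ r), sub_ae (rh ε φ2 φ r) 1,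
      one_ae (M := M) (m := m)] with x a1 a2 a3 a4
    rw [a3, e, a2, a4]
    refine (abs_sub _ _).trans ?_
    rw [abs_of_pos (Real.exp_pos _), abs_one]
    have := Real.exp_le_exp.2 ((le_abs_self _).trans a1)
    linarith
  have w3 : ∀ r ∈ Icc a b, φ r ∈ C.W := fun r hr => (hC.test_A (hR.φ_mem r hr).1).1
  have w4 : ∀ r ∈ Icc a b, φ2 r ∈ C.W := fun r hr => (hC.test_A (hR2.φ_mem r hr).1).1
  have bG : C.BdG (LL ε φ2 φ) (Icc a b) := by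
    have b4 := hD.BdG_smul (-1) bd.2.2.1 w3
    have := hD.BdG_add bd2.2.2.1 b4 w4 (fun r hr => hC.smul_mem _ _ (w3 r hr))
    have e : (fun r => φ2 r + (-1 : ℝ) • φ r) = fun r => φ2 r - φ r := by
      funext r; rw [neg_smul, one_smul]; ring
    rw [e] at this
    exact hD.BdG_smul ε⁻¹ this (fun r hr => hD.sub_mem (w4 r hr) (w3 r hr))
  have dF : ∀ t ∈ Icc a b, C.DW (LL ε φ2 φ) (-((ε / 2) • (C.lap (LL ε φ2 φ t)
      + C.Γ (LL ε φ2 φ t) (LL ε φ2 φ t))) - C.Γ (LL ε φ2 φ t) (φ t)) (Icc a b) t := by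
    intro t ht
    have h1 := hD.DW_smul ε⁻¹ (hD.DW_sub (reg_DWφ hC hB hR2 ht) (reg_DWφ hC hB hR ht))
    have hF := FT t ht
    have fA := FA t ht
    have φA := hC.test_A (hR.φ_mem t ht).1
    have εF := hC.smul_mem ε _ fA.1
    have e0 : φ2 t = φ t + ε • LL ε φ2 φ t := by
      unfold LL
      rw [smul_smul, mul_inv_cancel₀ hε, one_smul]; ring
    have e1 : C.lap (φ2 t) = C.lap (φ t) + ε • C.lap (LL ε φ2 φ t) := by
      conv_lhs => rw [e0]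
      rw [hC.lap_add hB (hR.φ_mem t ht).1 (hC.testI_smul hB ε hF).1, hC.lap_smul hB _ hF.1]
    have e2 : C.Γ (φ2 t) (φ2 t) = C.Γ (φ t) (φ t) + (2 * ε) • C.Γ (LL ε φ2 φ t) (φ t)
        + (ε ^ 2) • C.Γ (LL ε φ2 φ t) (LL ε φ2 φ t) := by
      conv_lhs => rw [e0]
      rw [hC.add_left _ φA.1 _ εF _ (hC.add_mem _ φA.1 _ εF), hD.Γ_add_right φA.1 φA.1 εF,
        hD.Γ_add_right εF φA.1 εF, hC.smul_left _ _ fA.1 _ φA.1, hC.smul_left _ _ fA.1 _ εF,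
        hD.Γ_smul_right _ φA.1 fA.1, hD.Γ_smul_right _ fA.1 fA.1, hC.symm _ φA.1 _ fA.1]
      algebra
    have e : ε⁻¹ • (-((ε / 2) • C.lap (φ2 t)) - (2 : ℝ)⁻¹ • C.Γ (φ2 t) (φ2 t)
        - (-((ε / 2) • C.lap (φ t)) - (2 : ℝ)⁻¹ • C.Γ (φ t) (φ t)))
        = -((ε / 2) • (C.lap (LL ε φ2 φ t) + C.Γ (LL ε φ2 φ t) (LL ε φ2 φ t)))
          - C.Γ (LL ε φ2 φ t) (φ t) := by
      rw [e1, e2]
      have e5 : ε⁻¹ • (-((ε / 2) • (C.lap (φ t) + ε • C.lap (LL ε φ2 φ t)))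
        - (2 : ℝ)⁻¹ • (C.Γ (φ t) (φ t) + (2 * ε) • C.Γ (LL ε φ2 φ t) (φ t)
        + (ε ^ 2) • C.Γ (LL ε φ2 φ t) (LL ε φ2 φ t))
        - (-((ε / 2) • C.lap (φ t)) - (2 : ℝ)⁻¹ • C.Γ (φ t) (φ t)))
        = -((ε⁻¹ * ε * (ε / 2)) • (C.lap (LL ε φ2 φ t) + C.Γ (LL ε φ2 φ t) (LL ε φ2 φ t)))
          - (ε⁻¹ * ε) • C.Γ (LL ε φ2 φ t) (φ t) := by algebra
      rw [e5, inv_mul_cancel₀ hε, one_mul, one_smul]
    rw [e] at h1
    exact h1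
  have dω : ∀ t ∈ Icc a b, DL2 (fun s => rh ε φ2 φ s - 1)
      (-((ε / 2) • C.lap (rh ε φ2 φ t - 1)) - C.Γ (φ t) (rh ε φ2 φ t - 1)) (Icc a b) t := by
    intro t ht
    have h1 := (DL2_ex (hD.DW_DL2 (dF t ht)) ht bF).add_const (-1)
    obtain ⟨wT, wΓ, wl⟩ := ex_testI hC hB (FT t ht)
    have φA := hC.test_A (hR.φ_mem t ht).1
    have e0 : rh ε φ2 φ t = ex (LL ε φ2 φ t) := rfl
    have e : ex (LL ε φ2 φ t) * (-((ε / 2) • (C.lap (LL ε φ2 φ t)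
      + C.Γ (LL ε φ2 φ t) (LL ε φ2 φ t))) - C.Γ (LL ε φ2 φ t) (φ t))
      = -((ε / 2) • C.lap (rh ε φ2 φ t - 1)) - C.Γ (φ t) (rh ε φ2 φ t - 1) := by
      rw [e0, wl, hC.symm _ φA.1 _ (hC.test_A wT.1).1, wΓ _ φA.1]
      algebra
    rw [e] at h1
    have e6 : (fun r => ex (LL ε φ2 φ r) + -1) = fun s => rh ε φ2 φ s - 1 := by
      funext s
      have : rh ε φ2 φ s = ex (LL ε φ2 φ s) := rfl
      rw [this]; ring
    rw [e6] at h1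
    exact h1
  refine ⟨fun t ht => ⟨ωT t ht, ?_⟩, fun t ht => ?_, fun t ht => ?_⟩
  · change ex (LL ε φ2 u t) = ex (LL ε φ2 φ t) * ex (LL ε φ u t)
    rw [← ex_add]
    congr 1
    unfold LL
    rw [← smul_add]
    congr 1
    ring
  · have mω : ∀ r ∈ Icc a b, MemLp (rh ε φ2 φ r - 1 : M →ₘ[m] ℝ) 2 m := fun r hr =>
      hC.memLp _ (ωA r hr).1
    have h1 := (dω t ht).mul_L1 (dω t ht) (mω t ht) (mω t ht)
    have h2 := (reg_DL2_rh hC hB hR ht).mul_DL1_bdd ht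
      (bd.2.2.2.2.2.2.2.2.top ht) h1 (bω.mul bω) (mem_mul_22 (mω t ht) (mω t ht))
    have h3 := h2.I_hasDeriv (fun r hr => mem_mul_top (bd.2.2.2.2.2.2.2.2.top hr)
      (mem_mul_22 (mω r hr) (mω r hr))) (mem_mul_top (bd.2.2.2.2.2.2.2.2.top ht)
      (mem_mul_22 (mω t ht) (mω t ht)))
    have st := b8a_stat hC hB (reg_L hC hB hR ht) (reg_th hC hB hR ht) (FT t ht)
      (reg_φ_eq hC hB hR t)
    have e7 : (fun t => I (rh ε φ u t * (rh ε φ2 φ t - 1) ^ 2)) = fun r =>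
        I (rh ε φ u r * ((rh ε φ2 φ r - 1) * (rh ε φ2 φ r - 1))) := by
      funext r; rw [sq]
    rw [e7]
    convert h3 using 1
    exact st.symm
  · refine cwa_of_sq fun r hr => ?_
    obtain ⟨c1, c2, c3, c4, c5⟩ := reg_seq hC hB hR ht hr
    have k1 := hD.DW_tw (dF t ht) (FA t ht).1 hr
    have k2 := hD.TW_Γ1 k1 k1
    have k3 : Tm (fun n => ex (LL ε φ2 φ (r n))) (ex (LL ε φ2 φ t)) :=
      ((hD.DW_DL2 (dF t ht)).tm bF hr).map Real.exp Real.continuous_exp (fun n => ex_ae _)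
        (ex_ae _)
    have k4 := (c3.mulb (k3.mulb k3)).mul1 k2
    have e8 : ∀ s ∈ Icc a b, rh ε φ u s * C.Γ (rh ε φ2 φ s - 1) (rh ε φ2 φ s - 1)
        = rh ε φ u s * (ex (LL ε φ2 φ s) * ex (LL ε φ2 φ s))
          * C.Γ (LL ε φ2 φ s) (LL ε φ2 φ s) := by
      intro s hs
      obtain ⟨wT, wΓ, wl⟩ := ex_testI hC hB (FT s hs)
      have e0 : rh ε φ2 φ s = ex (LL ε φ2 φ s) := rfl
      rw [e0, wΓ _ (hC.test_A wT.1).1, hC.symm _ (FA s hs).1 _ (hC.test_A wT.1).1,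
        wΓ _ (FA s hs).1]
      ring
    rw [e8 t ht]
    have e9 : (fun n => I (rh ε φ u (r n) * C.Γ (rh ε φ2 φ (r n) - 1) (rh ε φ2 φ (r n) - 1)))
        = fun n => I (rh ε φ u (r n) * (ex (LL ε φ2 φ (r n)) * ex (LL ε φ2 φ (r n)))
          * C.Γ (LL ε φ2 φ (r n)) (LL ε φ2 φ (r n))) := by
      funext n; rw [e8 _ (hr.mem n)]
    rw [e9]
    exact k4.I_lim

end Vale.Agent.P233.H343
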