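import Vale.Agent.P233.H343.B7
import Vale.Agent.P233.H343.B8a

set_option linter.all false

open MeasureTheory Filter Topology Set
open scoped ENNReal NNReal InnerProductSpace

universe u v

namespace Vale.Agent.P233.H343

variable {M : Type u} [MeasurableSpace M] {m : Measure M} {C : Calc m}

/-- from a derivative on `[a,1]` to an estimate of the increment -/
theorem incr_le {G H X Y : ℝ → ℝ} {a s' k B : ℝ} (has : a ≤ s')
    (hd : ∀ t ∈ Icc a 1, HasDerivWithinAt G (H t - k * X t - k * Y t) (Icc a 1) t)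
    (hH : ContinuousOn H (Icc a 1)) (hX : ContinuousOn X (Icc a 1)) (hY : ContinuousOn Y (Icc a 1))
    (hb : ∀ t ∈ Icc s' 1, |k * X t + k * Y t| ≤ B) {t₁ t₂ : ℝ} (h1 : s' ≤ t₁) (h12 : t₁ ≤ t₂)
    (h2 : t₂ ≤ 1) (h01 : t₂ - t₁ ≤ 1) (hB0 : 0 ≤ B) :
    |G t₂ - G t₁ - ∫ t in t₁..t₂, H t| ≤ B := by
  have hsub : Icc t₁ t₂ ⊆ Icc a 1 := Icc_subset_Icc (has.trans h1) h2
  have cG : ContinuousOn G (Icc t₁ t₂) := fun t ht =>
    ((hd t (hsub ht)).continuousWithinAt).mono hsub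
  have hi : ∀ {f : ℝ → ℝ}, ContinuousOn f (Icc a 1) → IntervalIntegrable f volume t₁ t₂ := by
    intro f hf
    exact (hf.mono hsub).intervalIntegrable_of_Icc h12
  have iH := hi hH
  have iX := hi hX
  have iY := hi hY
  have key := intervalIntegral.integral_eq_sub_of_hasDerivAt_of_le h12 cG (fun t ht => by
    have ht' : t ∈ Ioo a 1 :=
      ⟨(has.trans h1).trans_lt ht.1, ht.2.trans_le h2⟩
    exact (hd t ⟨ht'.1.le, ht'.2.le⟩).hasDerivAt (Icc_mem_nhds ht'.1 ht'.2))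
    ((iH.sub (iX.const_mul k)).sub (iY.const_mul k))
  rw [← key]
  have e : (∫ t in t₁..t₂, (H t - k * X t - k * Y t)) - ∫ t in t₁..t₂, H t
      = -∫ t in t₁..t₂, (k * X t + k * Y t) := by
    rw [← intervalIntegral.integral_sub ((iH.sub (iX.const_mul k)).sub (iY.const_mul k)) iH,
      ← intervalIntegral.integral_neg]
    refine intervalIntegral.integral_congr fun t _ => ?_
    ring
  rw [e, abs_neg]
  have h3 := intervalIntegral.norm_integral_le_of_norm_le_const (a := t₁) (b := t₂) (C := B)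
    (f := fun t => k * X t + k * Y t) (fun t ht => by
      rw [uIoc_of_le h12] at ht
      exact hb t ⟨h1.trans ht.1.le, ht.2.trans h2⟩)
  rw [Real.norm_eq_abs, abs_of_nonneg (by linarith : 0 ≤ t₂ - t₁)] at h3
  exact h3.trans (mul_le_of_le_one_right hB0 h01)

/-- `ε² |∇L|² ≤ 4 Λ` -/
theorem epsL_bd (hC : IsGamma C) {κ : ℝ} (hB : C.BEi κ) {ε a b Λ t : ℝ} {φ u : ℝ → M →ₘ[m] ℝ}
    (hR : C.Reg ε a b φ u) (ht : t ∈ Icc a b) (h1 : ∀ᵐ x ∂m, C.Γ (u t) (u t) x ≤ Λ)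
    (h2 : ∀ᵐ x ∂m, C.Γ (φ t) (φ t) x ≤ Λ) :
    ∀ᵐ x ∂m, ε ^ 2 * C.Γ (LL ε φ u t) (LL ε φ u t) x ≤ 4 * Λ := by
  have hD := hC.toIsDir
  have hε := hR.hε.ne'
  have φA := hC.test_A (hR.φ_mem t ht).1
  have uA := hC.test_A (hR.u_mem t ht).1
  have LA := hC.test_A (reg_L hC hB hR ht).1
  have e : (ε ^ 2) • C.Γ (LL ε φ u t) (LL ε φ u t)
      = C.Γ (φ t) (φ t) - (2 : ℝ) • C.Γ (φ t) (u t) + C.Γ (u t) (u t) := by
    unfold LL
    have sb := hD.sub_mem φA.1 uA.1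
    rw [hC.smul_left _ _ sb _ (hC.smul_mem _ _ sb), hD.Γ_smul_right _ sb sb, smul_smul, smul_smul,
      show ε ^ 2 * ε⁻¹ * ε⁻¹ = 1 by field_simp, one_smul, hD.Γ_sub_left φA.1 uA.1 sb,
      hD.Γ_sub_right φA.1 φA.1 uA.1, hD.Γ_sub_right uA.1 φA.1 uA.1, hC.symm _ uA.1 _ φA.1]
    algebra
  filter_upwards [eq_iff_ae.1 e, smul_ae (C.Γ (LL ε φ u t) (LL ε φ u t)) (ε ^ 2),
    add_ae (C.Γ (φ t) (φ t) - (2 : ℝ) • C.Γ (φ t) (u t)) (C.Γ (u t) (u t)),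
    sub_ae (C.Γ (φ t) (φ t)) ((2 : ℝ) • C.Γ (φ t) (u t)), smul_ae (C.Γ (φ t) (u t)) 2, h1, h2,
    hD.Γ_cs_ae φA.1 uA.1, hD.Γ_nonneg_ae φA.1, hD.Γ_nonneg_ae uA.1]
    with x a1 a2 a3 a4 a5 a6 a7 a8 a9 a10
  rw [← a2, a1, a3, a4, a5]
  have h3 : (2 * C.Γ (φ t) (u t) x) ^ 2 ≤ (C.Γ (φ t) (φ t) x + C.Γ (u t) (u t) x) ^ 2 := by
    nlinarith [sq_nonneg (C.Γ (φ t) (φ t) x - C.Γ (u t) (u t) x)]
  have h4 := abs_le_of_sq_le_sq h3 (by linarith)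
  have h5 := (abs_le.1 h4).1
  linarith

/-- `|∫ ρ Hess g (∇L,∇L)| ≤ λ ∫ ρ |∇L|² + λ⁻¹ ∫ ρ D² |∇L|²` -/
theorem hessLL_bd (hC : IsGamma C) {κ : ℝ} (hB : C.BEi κ) {L g D : M →ₘ[m] ℝ} {Λ ε lam : ℝ}
    (hL : L ∈ C.TestI) (hg : g ∈ C.Test) (hD0 : 0 ≤ D) (hDm : MemLp D 2 m)
    (hDh : ∀ᵐ x ∂m, |C.hess g L L x| ≤ D x * √(C.Γ L L x) * √(C.Γ L L x))
    (hlam : 0 < lam) (hε : 0 < ε) (hR : ∀ᵐ x ∂m, ex L x ≤ Λ)
    (hG : ∀ᵐ x ∂m, ε ^ 2 * C.Γ L L x ≤ 4 * Λ) :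
    ε ^ 2 * |I (ex L * C.hess g L L)| ≤
      lam * (ε ^ 2 * I (ex L * C.Γ L L)) + lam⁻¹ * (4 * Λ ^ 2 * I (D ^ 2)) := by
  have hD := hC.toIsDir
  have LA := hC.test_A hL.1
  have gA := hC.test_A hg
  have et : MemLp (ex L) ∞ m := ex_top LA.2
  have hgL := hC.Γ_mem hB hg hL.1
  have hLL := hC.Γ_mem hB hL.1 hL.1
  have g1 : MemLp (C.Γ L (C.Γ g L)) 1 m := hD.Γ_mem1 LA.1 hgL.1
  have g2 : MemLp (C.Γ g (C.Γ L L)) 1 m := hD.Γ_mem1 gA.1 hLL.1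
  have w3 : C.hess g L L = C.Γ L (C.Γ g L) - (2 : ℝ)⁻¹ • C.Γ g (C.Γ L L) := by
    unfold Calc.hess
    algebra
  have mh : MemLp (C.hess g L L) 1 m := by
    rw [w3]; exact mem_sub g1 (mem_smul _ g2)
  have m1 : MemLp (ex L * C.Γ L L : M →ₘ[m] ℝ) 1 m := mem_mul_top et (hC.mem1 _ LA.1)
  have m2 : MemLp (D ^ 2 : M →ₘ[m] ℝ) 1 m := mem_sq hDm
  rw [← abs_of_pos (pow_pos hε 2), ← abs_mul, abs_of_pos (pow_pos hε 2), ← I_smul, ← I_smul,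
    ← I_smul, ← I_smul, ← I_smul, ← I_add (mem_smul _ (mem_smul _ m1))
      (mem_smul _ (mem_smul _ m2))]
  unfold I
  refine abs_integral_le_integral_abs.trans ?_
  refine integral_mono_ae (int_of_mem (mem_smul _ (mem_mul_top et mh))).abs
    (int_of_mem (mem_add (mem_smul _ (mem_smul _ m1)) (mem_smul _ (mem_smul _ m2)))) ?_
  filter_upwards [hDh, hR, hG, ex_ae L, nonneg_iff_ae.1 hD0, hD.Γ_nonneg_ae LA.1,
    smul_ae (ex L * C.hess g L L) (ε ^ 2), mul_ae (ex L) (C.hess g L L),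
    add_ae (lam • ((ε ^ 2) • (ex L * C.Γ L L))) (lam⁻¹ • ((4 * Λ ^ 2) • D ^ 2)),
    smul_ae ((ε ^ 2) • (ex L * C.Γ L L)) lam, smul_ae (ex L * C.Γ L L) (ε ^ 2),
    mul_ae (ex L) (C.Γ L L), smul_ae ((4 * Λ ^ 2) • D ^ 2) lam⁻¹, smul_ae (D ^ 2) (4 * Λ ^ 2),
    sq_ae D] with x a1 a2 a3 a4 a5 a6 a7 a8 a9 a10 a11 a12 a13 a14 a15
  rw [a7, a8, a9, a10, a11, a12, a13, a14, a15]
  have p1 : 0 < ex L x := by rw [a4]; exact Real.exp_pos _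
  have p2 : 0 < Λ := p1.trans_le a2
  rw [abs_mul, abs_mul, abs_of_pos (pow_pos hε 2), abs_of_pos p1]
  rw [mul_assoc, Real.mul_self_sqrt a6] at a1
  set d := D x
  set G := C.Γ L L x
  set r := ex L x
  have q1 : d ≤ lam + lam⁻¹ * d ^ 2 := by
    have : 0 ≤ (lam - d) ^ 2 * lam⁻¹ := by positivity
    have e : (lam - d) ^ 2 * lam⁻¹ = lam - 2 * d + lam⁻¹ * d ^ 2 := by
      field_simp; ring
    rw [e] at this
    nlinarith
  have q2 : r * (ε ^ 2 * G) ≤ Λ * (4 * Λ) :=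
    mul_le_mul a2 a3 (by positivity) p2.le
  calc ε ^ 2 * (r * |C.hess g L L x|) ≤ ε ^ 2 * (r * (d * G)) := by
        gcongr
    _ = d * (r * (ε ^ 2 * G)) := by ring
    _ ≤ (lam + lam⁻¹ * d ^ 2) * (r * (ε ^ 2 * G)) :=
        mul_le_mul_of_nonneg_right q1 (by positivity)
    _ = lam * (ε ^ 2 * (r * G)) + lam⁻¹ * d ^ 2 * (r * (ε ^ 2 * G)) := by ring
    _ ≤ lam * (ε ^ 2 * (r * G)) + lam⁻¹ * d ^ 2 * (Λ * (4 * Λ)) := by
        gcongr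
    _ = lam * (ε ^ 2 * (r * G)) + lam⁻¹ * (4 * Λ ^ 2 * d ^ 2) := by ring

theorem blk_B7x_of (hB2 : Blk_B2.{u, v}) : Blk_B7x.{u, v} := by
  intro M _ m _ C K N s s' Λ E _ _ _ Gr U D ct hs hss hs1 g hg
  have hC := ct.gam
  have hD := hC.toIsDir
  have hB : C.BEi K := hC.bei ct.hN ct.be
  obtain ⟨c, hc⟩ := hB2 K N s s' Λ hs hss hs1
  set Z : ℝ := I (C.Γ (C.lap g) (C.lap g)) with hZ
  have lgW : C.lap g ∈ C.W := hC.test_lap_mem hg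
  have Z0 : 0 ≤ Z := hD.E_nonneg lgW
  set Q : ℝ := |c| + 4 * Λ ^ 2 * I (D g ^ 2) + √(|Λ| * Z) * √|c| with hQ
  have D0 : 0 ≤ I (D g ^ 2) := I_sq_nonneg _
  have Q0 : 0 ≤ Q := by positivity
  refine ⟨fun ε => √ε * Q, ?_, ?_⟩
  · have : Tendsto (fun ε : ℝ => √ε * Q) (𝓝 0) (𝓝 (√0 * Q)) :=
      (Real.continuous_sqrt.mul continuous_const).tendsto 0
    rw [Real.sqrt_zero, zero_mul] at this
    exact this.mono_left nhdsWithin_le_nhds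
  · intro ε l φ u hl t₁ t₂ h1 h12 h2
    have hε := hl.reg.hε
    obtain ⟨b1, b2, b3, b4⟩ := blk_B7 M m C K hC hB ε s 1 φ u hl.reg g hg
    have hc' := hc M m C E Gr U D ct ε l φ u hl
    refine incr_le (G := fun t => I (rh ε φ u t * C.Γ g (th φ u t)))
      (H := fun t => I (rh ε φ u t * C.hess g (th φ u t) (th φ u t)))
      (X := fun t => I (rh ε φ u t * C.hess g (LL ε φ u t) (LL ε φ u t)))
      (Y := fun t => I (rh ε φ u t * C.Γ (C.lap g) (LL ε φ u t))) (k := ε ^ 2 / 4) hss.le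
      b1 b2 b3 b4 (fun t ht => ?_) h1 h12 h2 (by linarith) (by positivity)
    have ht' : t ∈ Icc s 1 := ⟨hss.le.trans ht.1, ht.2⟩
    have hL := reg_L hC hB hl.reg ht'
    have LA := hC.test_A hL.1
    have er : rh ε φ u t = ex (LL ε φ u t) := rfl
    have et : MemLp (ex (LL ε φ u t)) ∞ m := ex_top LA.2
    have e0 : 0 ≤ ex (LL ε φ u t) := ex_nonneg _
    have V1 : ε * I (ex (LL ε φ u t) * C.Γ (LL ε φ u t) (LL ε φ u t)) ≤ |c| :=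
      (hc' t ht).1.trans (le_abs_self _)
    set V : ℝ := I (ex (LL ε φ u t) * C.Γ (LL ε φ u t) (LL ε φ u t)) with hV
    have V0 : 0 ≤ V := I_nonneg (mul_nonneg e0 (hC.nonneg _ LA.1))
    have sε : 0 < √ε := Real.sqrt_pos.2 hε
    have sε2 : √ε * √ε = ε := Real.mul_self_sqrt hε.le
    have sε1 : √ε ≤ 1 := by
      rw [Real.sqrt_le_one]; exact hl.hε1
    have x1 := hessLL_bd hC hB (lam := (√ε)⁻¹) hL hg (ct.hd.nonneg g hg) (ct.hd.mem g hg)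
      (ct.hd.hess g hg _ hL.1 _ hL.1) (inv_pos.2 sε) hε (hl.bd.rho t ht')
      (epsL_bd hC hB hl.reg ht' (hl.bd.gu t ht') (hl.bd.gφ t ht'))
    rw [← hV, inv_inv] at x1
    have x2 : (√ε)⁻¹ * (ε ^ 2 * V) ≤ √ε * |c| := by
      have : (√ε)⁻¹ * (ε ^ 2 * V) = √ε * (ε * V) := by
        have h5 : ε ^ 2 = √ε * √ε * ε := by rw [sε2, sq]
        rw [h5]; field_simp
      rw [this]
      exact mul_le_mul_of_nonneg_left V1 sε.le
    -- the second error term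
    have x3 : |I (ex (LL ε φ u t) * C.Γ (C.lap g) (LL ε φ u t))| ≤ √(|Λ| * Z) * √V := by
      have y1 := csΓ_w hD e0 et mem_top_one zero_le_one (b := (1 : M →ₘ[m] ℝ)) (by
        filter_upwards [one_ae (M := M) (m := m)] with x hx
        rw [hx, abs_one]) lgW LA.1
      rw [one_mul, one_mul, ← hV] at y1
      refine y1.trans (mul_le_mul_of_nonneg_right (Real.sqrt_le_sqrt ?_) (Real.sqrt_nonneg _))
      rw [hZ, ← I_smul]
      refine I_mono (mem_mul_top et (hC.mem1 _ lgW)) (mem_smul _ (hC.mem1 _ lgW)) ?_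
      rw [le_iff_ae]
      filter_upwards [mul_ae (ex (LL ε φ u t)) (C.Γ (C.lap g) (C.lap g)),
        smul_ae (C.Γ (C.lap g) (C.lap g)) |Λ|, hl.bd.rho t ht', hD.Γ_nonneg_ae lgW]
        with x c1 c2 c3 c4
      rw [c1, c2]
      exact mul_le_mul_of_nonneg_right (c3.trans (le_abs_self _)) c4
    have x4 : ε ^ 2 * √V ≤ √ε * √|c| := by
      have h6 : √ε * √V ≤ √|c| := by
        rw [← Real.sqrt_mul hε.le]; exact Real.sqrt_le_sqrt V1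
      have h7 : ε ^ 2 * √V = (ε * √ε) * (√ε * √V) := by
        have : ε ^ 2 = ε * (√ε * √ε) := by rw [sε2, sq]
        rw [this]; ring
      rw [h7]
      have h8 : ε * √ε ≤ √ε := mul_le_of_le_one_left sε.le hl.hε1
      exact mul_le_mul h8 h6 (by positivity) sε.le
    have x5 : ε ^ 2 * |I (ex (LL ε φ u t) * C.Γ (C.lap g) (LL ε φ u t))|
        ≤ √ε * (√(|Λ| * Z) * √|c|) := by
      calc ε ^ 2 * |I (ex (LL ε φ u t) * C.Γ (C.lap g) (LL ε φ u t))|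
          ≤ ε ^ 2 * (√(|Λ| * Z) * √V) := mul_le_mul_of_nonneg_left x3 (by positivity)
        _ = √(|Λ| * Z) * (ε ^ 2 * √V) := by ring
        _ ≤ √(|Λ| * Z) * (√ε * √|c|) := mul_le_mul_of_nonneg_left x4 (Real.sqrt_nonneg _)
        _ = _ := by ring
    simp only
    rw [er]
    set X : ℝ := I (ex (LL ε φ u t) * C.hess g (LL ε φ u t) (LL ε φ u t))
    set Y : ℝ := I (ex (LL ε φ u t) * C.Γ (C.lap g) (LL ε φ u t))
    have x6 : |ε ^ 2 / 4 * X + ε ^ 2 / 4 * Y| ≤ (ε ^ 2 * |X| + ε ^ 2 * |Y|) / 4 := by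
      refine (abs_add_le _ _).trans (le_of_eq ?_)
      rw [abs_mul, abs_mul, abs_of_pos (by positivity : 0 < ε ^ 2 / 4)]
      ring
    refine x6.trans ?_
    have x7 : ε ^ 2 * |X| + ε ^ 2 * |Y| ≤ √ε * Q := by
      calc ε ^ 2 * |X| + ε ^ 2 * |Y|
          ≤ (√ε * |c| + √ε * (4 * Λ ^ 2 * I (D g ^ 2))) + √ε * (√(|Λ| * Z) * √|c|) :=
            add_le_add (x1.trans (add_le_add x2 le_rfl)) x5
        _ = √ε * Q := by rw [hQ]; ring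
    have x8 : 0 ≤ √ε * Q := by positivity
    linarith

/-- `∫ ρ |∇ω|² ≤ 2 e^λ ∫ ρ w |∇(L+F)|² + 2 e^(2λ) ∫ ρ |∇L|²`, `w = exp F`, `ω = w - 1`. -/
theorem omega_bd (hC : IsGamma C) {κ : ℝ} (hB : C.BEi κ) {L F : M →ₘ[m] ℝ} {lam : ℝ}
    (hL : L ∈ C.TestI) (hF : F ∈ C.TestI) (hb : ∀ᵐ x ∂m, ex F x ≤ Real.exp lam) :
    I (ex L * C.Γ (ex F - 1) (ex F - 1)) ≤
      2 * Real.exp lam * I (ex (L + F) * C.Γ (L + F) (L + F))
        + 2 * Real.exp lam ^ 2 * I (ex L * C.Γ L L) := by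
  have hD := hC.toIsDir
  obtain ⟨wT, wΓ, -⟩ := ex_testI hC hB hF
  have LA := hC.test_A hL.1
  have FA := hC.test_A hF.1
  have ωA := hC.test_A wT.1
  have hLF := hC.testI_add hB hL hF
  have LFA := hC.test_A hLF.1
  have e1 : C.Γ (ex F - 1) (ex F - 1) = ex F * (ex F * C.Γ F F) := by
    rw [wΓ _ ωA.1, hC.symm _ FA.1 _ ωA.1, wΓ _ FA.1]
  have e2 : C.Γ (L + F) (L + F) = C.Γ L L + (2 : ℝ) • C.Γ L F + C.Γ F F := by
    rw [hC.add_left _ LA.1 _ FA.1 _ LFA.1, hD.Γ_add_right LA.1 LA.1 FA.1,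
      hD.Γ_add_right FA.1 LA.1 FA.1, hC.symm _ FA.1 _ LA.1]
    algebra
  have m0 : MemLp (ex L * C.Γ (ex F - 1) (ex F - 1) : M →ₘ[m] ℝ) 1 m :=
    mem_mul_top (ex_top LA.2) (hC.mem1 _ ωA.1)
  have m1 : MemLp (ex (L + F) * C.Γ (L + F) (L + F) : M →ₘ[m] ℝ) 1 m :=
    mem_mul_top (ex_top LFA.2) (hC.mem1 _ LFA.1)
  have m2 : MemLp (ex L * C.Γ L L : M →ₘ[m] ℝ) 1 m := mem_mul_top (ex_top LA.2) (hC.mem1 _ LA.1)
  rw [← I_smul, ← I_smul, ← I_add (mem_smul _ m1) (mem_smul _ m2)]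
  refine I_mono m0 (mem_add (mem_smul _ m1) (mem_smul _ m2)) ?_
  rw [le_iff_ae]
  filter_upwards [mul_ae (ex L) (C.Γ (ex F - 1) (ex F - 1)), eq_iff_ae.1 e1,
    mul_ae (ex F) (ex F * C.Γ F F), mul_ae (ex F) (C.Γ F F),
    add_ae ((2 * Real.exp lam) • (ex (L + F) * C.Γ (L + F) (L + F)))
      ((2 * Real.exp lam ^ 2) • (ex L * C.Γ L L)),
    smul_ae (ex (L + F) * C.Γ (L + F) (L + F)) (2 * Real.exp lam),
    smul_ae (ex L * C.Γ L L) (2 * Real.exp lam ^ 2),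
    mul_ae (ex (L + F)) (C.Γ (L + F) (L + F)), mul_ae (ex L) (C.Γ L L), eq_iff_ae.1 e2,
    add_ae (C.Γ L L + (2 : ℝ) • C.Γ L F) (C.Γ F F), add_ae (C.Γ L L) ((2 : ℝ) • C.Γ L F),
    smul_ae (C.Γ L F) 2, eq_iff_ae.1 (ex_add L F), mul_ae (ex L) (ex F), hb,
    hD.Γ_cs_ae LA.1 FA.1, hD.Γ_nonneg_ae LA.1, hD.Γ_nonneg_ae FA.1, nonneg_iff_ae.1 (ex_nonneg L),
    nonneg_iff_ae.1 (ex_nonneg F)]
    with x a1 a2 a3 a4 a5 a6 a7 a8 a9 a10 a11 a12 a13 a14 a15 a16 a17 a18 a19 a20 a21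
  rw [a1, a2, a3, a4, a5, a6, a7, a8, a9, a10, a11, a12, a13, a14, a15]
  set r := ex L x
  set w := ex F x
  set p := C.Γ L L x
  set q := C.Γ F F x
  set s := C.Γ L F x
  set e := Real.exp lam
  have h1 : q ≤ 2 * (p + 2 * s + q) + 2 * p := by
    have h2 : (4 * s) ^ 2 ≤ (4 * p + q) ^ 2 := by nlinarith [sq_nonneg (4 * p - q)]
    have h3 := (abs_le.1 (abs_le_of_sq_le_sq h2 (by positivity))).1
    linarith
  have h0 : 0 ≤ p + 2 * s + q := by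
    have h2 : (2 * s) ^ 2 ≤ (p + q) ^ 2 := by nlinarith [sq_nonneg (p - q)]
    have h3 := (abs_le.1 (abs_le_of_sq_le_sq h2 (by positivity))).1
    linarith
  have h4 : w * q ≤ e * (2 * (p + 2 * s + q) + 2 * p) := by
    exact mul_le_mul a16 h1 a19 (Real.exp_pos _).le
  calc r * (w * (w * q)) ≤ r * (w * (w * (2 * (p + 2 * s + q) + 2 * p))) := by gcongr
    _ = 2 * (w * (r * w * (p + 2 * s + q))) + 2 * (w * w) * (r * p) := by ring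
    _ ≤ 2 * (e * (r * w * (p + 2 * s + q))) + 2 * (e * e) * (r * p) := by gcongr
    _ = _ := by ring

theorem blk_B8b_of (hB2 : Blk_B2.{u, v}) : Blk_B8b.{u, v} := by
  intro M _ m _ C K N s s' Λ E _ _ _ Gr U D ct hs hss hs1 h hh β hβ
  have hC := ct.gam
  have hD := hC.toIsDir
  have hB : C.BEi K := hC.bei ct.hN ct.be
  obtain ⟨c, hc⟩ := hB2 K N s s' Λ hs hss hs1
  obtain ⟨Q, hQ0, hQ⟩ := b8_stat hC hB hβ hh hh Λ
  set e0 : ℝ := Real.exp |Λ| with he0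
  have e0p : 0 < e0 := Real.exp_pos _
  set A0 : ℝ := 2 * e0 * |c| + 2 * e0 ^ 2 * |c| with hA0
  have A00 : 0 ≤ A0 := by positivity
  refine ⟨Q * (√|c| + 1 + √A0 * e0), ?_⟩
  intro ε l l' φ φ' u hl hl' hφ t ht
  have hε := hl.reg.hε
  have ht' : t ∈ Icc s 1 := ⟨hss.le.trans ht.1, ht.2⟩
  obtain ⟨c1, -, -⟩ := blk_B8a M m C K hC hB ε s 1 φ φ' u hl.reg hl'.reg
  have hL := reg_L hC hB hl.reg ht'
  have hL' := reg_L hC hB hl'.reg ht'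
  have hθ := reg_th hC hB hl.reg ht'
  have hF : LL ε φ' φ t ∈ C.TestI := by
    have h2 := hC.testI_add hB hL' (hC.testI_smul hB (-1) hL)
    have e : LL ε φ' u t + (-1 : ℝ) • LL ε φ u t = LL ε φ' φ t := by
      unfold LL
      rw [neg_smul, one_smul, ← sub_eq_add_neg, ← smul_sub]
      congr 1; ring
    rwa [e] at h2
  have eF : LL ε φ u t + LL ε φ' φ t = LL ε φ' u t := by
    unfold LL
    rw [← smul_add]
    congr 1; ring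
  have eθ : th φ u t + (ε / 2) • LL ε φ' φ t = th φ' u t := by
    unfold th LL
    rw [smul_smul, show ε / 2 * ε⁻¹ = (2 : ℝ)⁻¹ by field_simp]
    algebra
  have er : rh ε φ u t = ex (LL ε φ u t) := rfl
  have ew : rh ε φ' φ t = ex (LL ε φ' φ t) := rfl
  have er' : rh ε φ' u t = ex (LL ε φ u t) * ex (LL ε φ' φ t) := by
    rw [← ex_add, eF]; rfl
  -- bounds for `w`
  have bF : ∀ᵐ x ∂m, |LL ε φ' φ t x| ≤ |Λ| := by
    filter_upwards [hφ t ht', smul_ae (φ' t - φ t) ε⁻¹, sub_ae (φ' t) (φ t)] with x a1 a2 a3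
    have : LL ε φ' φ t x = ε⁻¹ * (φ' t x - φ t x) := by
      change (ε⁻¹ • (φ' t - φ t)) x = _
      rw [a2, a3]
    rw [this, abs_mul, abs_of_pos (inv_pos.2 hε)]
    calc ε⁻¹ * |φ' t x - φ t x| ≤ ε⁻¹ * (Λ * ε) := mul_le_mul_of_nonneg_left a1 (inv_pos.2 hε).le
      _ = Λ := by field_simp
      _ ≤ |Λ| := le_abs_self _
  have bw1 : ∀ᵐ x ∂m, ex (LL ε φ' φ t) x ≤ e0 := by
    filter_upwards [bF, ex_ae (LL ε φ' φ t)] with x a1 a2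
    rw [a2]; exact Real.exp_le_exp.2 ((le_abs_self _).trans a1)
  have bw2 : ∀ᵐ x ∂m, e0⁻¹ ≤ ex (LL ε φ' φ t) x := by
    filter_upwards [bF, ex_ae (LL ε φ' φ t)] with x a1 a2
    rw [a2, he0, ← Real.exp_neg]
    exact Real.exp_le_exp.2 (by linarith [neg_abs_le (LL ε φ' φ t x)])
  have key := hQ ε hε _ hL _ hF _ hθ (hl.bd.rho t ht') e0⁻¹ (inv_pos.2 e0p) bw2
  rw [eθ] at key
  rw [er', er, ew]
  refine key.trans ?_
  have V1 : ε * I (ex (LL ε φ u t) * C.Γ (LL ε φ u t) (LL ε φ u t)) ≤ |c| :=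
    ((hc M m C E Gr U D ct ε l φ u hl) t ht).1.trans (le_abs_self _)
  have V2 : ε * I (ex (LL ε φ' u t) * C.Γ (LL ε φ' u t) (LL ε φ' u t)) ≤ |c| :=
    ((hc M m C E Gr U D ct ε l' φ' u hl') t ht).1.trans (le_abs_self _)
  have ob := omega_bd hC hB hL hF bw1
  rw [eF] at ob
  set A : ℝ := I (ex (LL ε φ u t) * C.Γ (ex (LL ε φ' φ t) - 1) (ex (LL ε φ' φ t) - 1)) with hA
  set V : ℝ := I (ex (LL ε φ u t) * C.Γ (LL ε φ u t) (LL ε φ u t)) with hV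
  set V' : ℝ := I (ex (LL ε φ' u t) * C.Γ (LL ε φ' u t) (LL ε φ' u t)) with hV'
  have A1 : 0 ≤ A := I_nonneg (mul_nonneg (ex_nonneg _)
    (hC.nonneg _ (hC.test_A (ex_testI hC hB hF).1.1).1))
  have A2 : ε * A ≤ A0 := by
    calc ε * A ≤ ε * (2 * e0 * V' + 2 * e0 ^ 2 * V) := mul_le_mul_of_nonneg_left ob hε.le
      _ = 2 * e0 * (ε * V') + 2 * e0 ^ 2 * (ε * V) := by ring
      _ ≤ A0 := by rw [hA0]; gcongr
  have s1 : ε * A / e0⁻¹ ≤ √(ε * A) * (√A0 * e0) := by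
    have h5 : ε * A = √(ε * A) * √(ε * A) := (Real.mul_self_sqrt (by positivity)).symm
    calc ε * A / e0⁻¹ = (√(ε * A) * √(ε * A)) * e0 := by rw [← h5]; field_simp
      _ ≤ (√(ε * A) * √A0) * e0 := by
          gcongr
      _ = _ := by ring
  have s2 : √(ε * V) ≤ √|c| := Real.sqrt_le_sqrt V1
  have s3 : √ε ≤ 1 := by rw [Real.sqrt_le_one]; exact hl.hε1
  calc Q * (√(ε * A) * (√(ε * V) + √ε) + ε * A / e0⁻¹)
      ≤ Q * (√(ε * A) * (√|c| + 1) + √(ε * A) * (√A0 * e0)) := by gcongr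
    _ = _ := by ring

end Vale.Agent.P233.H343
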