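import Vale.Agent.P233.H343.BlkB0r
import Vale.Agent.P233.H343.Bx
import Vale.Agent.P233.H66.BlkB1
import Vale.Agent.P233.H950.B23
import Vale.Agent.P233.H950.B4
import Vale.Agent.P233.H133.BlkB6t

set_option linter.all false

universe u v

namespace Vale.Agent.P233.H343

theorem blk_B1 : Blk_B1.{u} := blk_B1_of blk_B0r
theorem blk_B2 : Blk_B2.{u, v} := blk_B2_of blk_B0r blk_B1
theorem blk_B3 : Blk_B3.{u, v} := blk_B3_of blk_B0r blk_B1
theorem blk_B4 : Blk_B4.{u, v} := blk_B4_of blk_B0r blk_B1 blk_B3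
theorem blk_B6t : Blk_B6t.{u, v} := H133.blk_B6t blk_B0r
theorem blk_B7x : Blk_B7x.{u, v} := blk_B7x_of blk_B2
theorem blk_B8b : Blk_B8b.{u, v} := blk_B8b_of blk_B2

end Vale.Agent.P233.H343
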