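import Vale.Agent.P233.H343.Reg

set_option linter.all false

open MeasureTheory Filter Topology Set
open scoped ENNReal NNReal

universe u

namespace Vale.Agent.P233.H343

variable {M : Type u} [MeasurableSpace M] {m : Measure M} {C : Calc m}

/-- `∫ ρ Hess g (∇θ,∇θ)` without derivatives of `⟨∇g,∇θ⟩` and `|∇θ|²`. -/
theorem hess_weak (hC : IsGamma C) {κ : ℝ} (hB : C.BEi κ) {L g θ : M →ₘ[m] ℝ}
    (hL : L ∈ C.TestI) (hg : g ∈ C.Test) (hθ : θ ∈ C.TestI) :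
    I (ex L * C.hess g θ θ) = -I (ex L * (C.Γ g θ * (C.Γ L θ + C.lap θ)))
      + (2 : ℝ)⁻¹ * I (ex L * (C.Γ θ θ * (C.Γ L g + C.lap g))) := by
  have hD := hC.toIsDir
  obtain ⟨rT, rΓ, rl⟩ := ex_testI hC hB hL
  have er : ex L = 1 + (ex L - 1) := by ring
  have rA := hC.test_A rT.1
  have rL := hC.test_Γ_top rT.1
  have gA := hC.test_A hg
  have LA := hC.test_A hL.1
  have θA := hC.test_A hθ.1
  have θl := hC.test_isLap hθ.1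
  have gl := hC.test_isLap hg
  have hgθ := hC.Γ_mem hB hg hθ.1
  have hθθ := hC.Γ_mem hB hθ.1 hθ.1
  have et : MemLp (ex L) ∞ m := ex_top LA.2
  have a1 := ibp hC rA rL θl hgθ.1
  have a2 := ibp hC rA rL gl hθθ.1
  rw [← er, rΓ _ θA.1] at a1
  rw [← er, rΓ _ gA.1] at a2
  have e1 : C.Γ g θ * (ex L * C.Γ L θ + ex L * C.lap θ)
      = ex L * (C.Γ g θ * (C.Γ L θ + C.lap θ)) := by ring
  have e2 : C.Γ θ θ * (ex L * C.Γ L g + ex L * C.lap g)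
      = ex L * (C.Γ θ θ * (C.Γ L g + C.lap g)) := by ring
  rw [e1] at a1
  rw [e2] at a2
  have g1 : MemLp (C.Γ θ (C.Γ g θ)) 1 m := hD.Γ_mem1 θA.1 hgθ.1
  have g2 : MemLp (C.Γ g (C.Γ θ θ)) 1 m := hD.Γ_mem1 gA.1 hθθ.1
  have w3 : ex L * C.hess g θ θ
      = ex L * C.Γ θ (C.Γ g θ) - (2 : ℝ)⁻¹ • (ex L * C.Γ g (C.Γ θ θ)) := by
    unfold Calc.hess
    algebra
  rw [w3, I_sub (mem_mul_top et g1) (mem_smul _ (mem_mul_top et g2)), I_smul, a1, a2]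
  ring

/-- convergence of `∫ ρ Hess g (∇θ,∇θ)` -/
theorem hess_weak_lim (hC : IsGamma C) {κ : ℝ} (hB : C.BEi κ) {L θ : ℕ → M →ₘ[m] ℝ}
    {g L0 θ0 : M →ₘ[m] ℝ} (hg : g ∈ C.Test) (hL : ∀ n, L n ∈ C.TestI) (hθ : ∀ n, θ n ∈ C.TestI)
    (hL0 : L0 ∈ C.TestI) (hθ0 : θ0 ∈ C.TestI)
    (cL : C.TW L L0) (cθ : C.TW θ θ0) (cρ : Tm (fun n => ex (L n)) (ex L0))
    (cl : T2 (fun n => C.lap (θ n)) (C.lap θ0))
    (bL : ∃ K : ℝ, ∀ n, ∀ᵐ z ∂m, C.Γ (L n) (L n) z ≤ K)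
    (bθ : ∃ K : ℝ, ∀ n, ∀ᵐ z ∂m, C.Γ (θ n) (θ n) z ≤ K) :
    Tendsto (fun n => I (ex (L n) * C.hess g (θ n) (θ n))) atTop
      (𝓝 (I (ex L0 * C.hess g θ0 θ0))) := by
  have hD := hC.toIsDir
  have gA := hC.test_A hg
  obtain ⟨G, hG⟩ := mem_top_iff.1 (hC.test_Γ_top hg)
  have bg : ∃ K : ℝ, ∀ n : ℕ, ∀ᵐ z ∂m, C.Γ g g z ≤ K := ⟨G, fun n => by
    filter_upwards [hG] with x hx using (le_abs_self _).trans hx⟩
  have cg : C.TW (fun _ => g) g := hD.TW_const gA.1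
  -- the four sequences converge in `L²`
  have c1 : T2 (fun n => C.Γ g (θ n)) (C.Γ g θ0) := hD.TW_Γ2 cg bg cθ
  have c2 : T2 (fun n => C.Γ (L n) (θ n)) (C.Γ L0 θ0) := hD.TW_Γ2 cL bL cθ
  have c3 : T2 (fun n => C.Γ (θ n) (θ n)) (C.Γ θ0 θ0) := hD.TW_Γ2 cθ bθ cθ
  have c4 : T2 (fun n => C.Γ (L n) g) (C.Γ L0 g) := hD.TW_Γ2 cL bL cg
  have c5 : T2 (fun _ : ℕ => C.lap g) (C.lap g) := T2.const (hC.test_isLap hg).2.1
  have d1 := (cρ.mul1 (c1.mul (c2.add cl))).I_lim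
  have d2 := (cρ.mul1 (c3.mul (c4.add c5))).I_lim
  rw [hess_weak hC hB hL0 hg hθ0]
  have e : (fun n => I (ex (L n) * C.hess g (θ n) (θ n))) = fun n =>
      -I (ex (L n) * (C.Γ g (θ n) * (C.Γ (L n) (θ n) + C.lap (θ n))))
      + (2 : ℝ)⁻¹ * I (ex (L n) * (C.Γ (θ n) (θ n) * (C.Γ (L n) g + C.lap g))) := by
    funext n; exact hess_weak hC hB (hL n) hg (hθ n)
  rw [e]
  exact d1.neg.add (d2.const_mul _)

theorem blk_B7 : Blk_B7.{u} := by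
  intro M _ m _ C K hC hB ε a b φ u hR g hg
  have hD := hC.toIsDir
  have bd := reg_bd hC hB hR
  have gA := hC.test_A hg
  have gT := hC.test_Γ_top hg
  obtain ⟨G, hG⟩ := mem_top_iff.1 gT
  have bg : C.BdG (fun _ : ℝ => g) (Icc a b) := ⟨G, fun r hr => by
    filter_upwards [hG] with x hx using (le_abs_self _).trans hx⟩
  refine ⟨fun t ht => ?_, fun t ht => ?_, fun t ht => ?_, fun t ht => ?_⟩
  · have hL := reg_L hC hB hR ht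
    have hθ := reg_th hC hB hR ht
    have h1 := hD.I_aΓ (reg_DL2_rh hC hB hR ht) bd.2.2.2.2.2.2.2.2 (hD.DW_const g)
      (reg_DWθ hC hB hR ht) ht gA.1 (hC.test_A hθ.1).1 bg bd.2.2.2.2.2.2.2.1
    have s := b7_stat hC hB hg hL hθ.1 ε
    have e1 : rh ε φ u t = ex (LL ε φ u t) := rfl
    have e2 : I (rh ε φ u t * C.Γ 0 (th φ u t)) = 0 := by
      rw [hD.Γ_zero_left (hC.test_A hθ.1).1, mul_zero, I_zero]
    obtain ⟨rT, rΓ, -⟩ := ex_testI hC hB hL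
    have e3 : I (-(rh ε φ u t * C.lap (th φ u t) + C.Γ (th φ u t) (rh ε φ u t - 1))
        * C.Γ g (th φ u t))
        = -I ((C.Γ (ex (LL ε φ u t) - 1) (th φ u t) + ex (LL ε φ u t) * C.lap (th φ u t))
          * C.Γ g (th φ u t)) := by
      rw [← I_neg, e1, hC.symm _ (hC.test_A hθ.1).1 _ (hC.test_A rT.1).1]
      congr 1
      ring
    rw [e2, e3, add_zero] at h1
    rw [e1] at h1 ⊢
    rw [s] at h1
    exact h1
  · refine cwa_of_sq fun r hr => ?_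
    obtain ⟨c1, c2, c3, c4, c5⟩ := reg_seq hC hB hR ht hr
    obtain ⟨K1, hK1⟩ := bd.2.2.2.2.2.2.1
    obtain ⟨K2, hK2⟩ := bd.2.2.2.2.2.2.2.1
    exact hess_weak_lim hC hB hg (fun n => reg_L hC hB hR (hr.mem n))
      (fun n => reg_th hC hB hR (hr.mem n)) (reg_L hC hB hR ht) (reg_th hC hB hR ht) c1 c2 c3 c5
      ⟨K1, fun n => hK1 _ (hr.mem n)⟩ ⟨K2, fun n => hK2 _ (hr.mem n)⟩
  · refine cwa_of_sq fun r hr => ?_
    obtain ⟨c1, c2, c3, c4, c5⟩ := reg_seq hC hB hR ht hr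
    obtain ⟨K1, hK1⟩ := bd.2.2.2.2.2.2.1
    exact hess_weak_lim hC hB hg (fun n => reg_L hC hB hR (hr.mem n))
      (fun n => reg_L hC hB hR (hr.mem n)) (reg_L hC hB hR ht) (reg_L hC hB hR ht) c1 c1 c3 c4
      ⟨K1, fun n => hK1 _ (hr.mem n)⟩ ⟨K1, fun n => hK1 _ (hr.mem n)⟩
  · refine cwa_of_sq fun r hr => ?_
    obtain ⟨c1, c2, c3, c4, c5⟩ := reg_seq hC hB hR ht hr
    have k1 := hD.TW_Γ1 (hD.TW_const (hC.test_lap_mem hg)) c1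
    exact (c3.mul1 k1).I_lim

end Vale.Agent.P233.H343
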