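import Vale.Agent.P233.H343.Reg
import Vale.Agent.P233.H748.PairT

set_option linter.all false

open MeasureTheory Filter Topology Set
open scoped ENNReal NNReal

universe u

namespace Vale.Agent.P233.H343

open Vale.Agent.P233.H788

variable {M : Type u} [MeasurableSpace M] {m : Measure M} {C : Calc m}

/-- strong continuity from the `W`-continuity of the function and of its Laplacian -/
theorem STo_mk (hC : IsGamma C) {ι : Type*} {l : Filter ι} {v : ι → M →ₘ[m] ℝ} {a : M →ₘ[m] ℝ}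
    {B : ℝ} (h1 : ∀ᶠ i in l, v i ∈ C.TestI) (h2 : a ∈ C.TestI) (h3 : C.WTo l v a)
    (h4 : C.WTo l (fun i => C.lap (v i)) (C.lap a))
    (h5 : ∀ᶠ i in l, ∀ᵐ x ∂m, |v i x| ≤ B ∧ C.Γ (v i) (v i) x ≤ B ∧ |C.lap (v i) x| ≤ B)
    (h6 : ∀ᵐ x ∂m, |a x| ≤ B ∧ C.Γ a a x ≤ B ∧ |C.lap a x| ≤ B) :
    C.STo l v a := by
  have hD := hC.toIsDir
  have A := hC.test_A h2.1
  have lA := hC.test_lap_mem h2.1
  set Λ : ℝ := |B| + (2 * C.nrm2 a + 2) + (2 * C.nrm2 (C.lap a) + 2) with hΛ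
  have n1 : 0 ≤ C.nrm2 a := hD.nrm2_nonneg A.1
  have n2 : 0 ≤ C.nrm2 (C.lap a) := hD.nrm2_nonneg lA
  have b0 : B ≤ Λ := by
    have := le_abs_self B
    linarith
  refine ⟨h1, h2, h3, h4, Λ, by positivity, ⟨?_, ?_, ?_, ?_, ?_⟩, ?_⟩
  · filter_upwards [h6] with x hx using hx.1.trans b0
  · filter_upwards [h6] with x hx using hx.2.1.trans b0
  · filter_upwards [h6] with x hx using hx.2.2.trans b0
  · linarith [abs_nonneg B]
  · linarith [abs_nonneg B]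
  · filter_upwards [h5, hD.WTo_bdd h3, hD.WTo_bdd h4] with i a1 a2 a3
    refine ⟨?_, ?_, ?_, ?_, ?_⟩
    · filter_upwards [a1] with x hx using hx.1.trans b0
    · filter_upwards [a1] with x hx using hx.2.1.trans b0
    · filter_upwards [a1] with x hx using hx.2.2.trans b0
    · linarith [abs_nonneg B]
    · linarith [abs_nonneg B]

theorem blk_B0r : Blk_B0r.{u} := by
  intro M _ m _ C K hC hB ε a b φ u hR
  have hD := hC.toIsDir
  have bd := reg_bd hC hB hR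
  obtain ⟨B0, hB0⟩ := hR.bdd
  obtain ⟨Kb, hKb⟩ := bd.2.2.2.2.1
  obtain ⟨Kg, hKg⟩ := bd.2.2.2.2.2.2.1
  have LT : ∀ t ∈ Icc a b, LL ε φ u t ∈ C.TestI := fun t ht => reg_L hC hB hR ht
  have LA : ∀ t ∈ Icc a b, LL ε φ u t ∈ C.A := fun t ht => hC.test_A (LT t ht).1
  have stφ : ∀ t ∈ Icc a b, C.STo (𝓝[Icc a b] t) φ (φ t) := by
    intro t ht
    refine STo_mk hC (B := B0) ?_ (hR.φ_mem t ht) (hD.DW_WTo (reg_DWφ hC hB hR ht)
      (hC.test_A (hR.φ_mem t ht).1).1) ⟨?_, hC.test_lap_mem (hR.φ_mem t ht).1, hR.cφ t ht⟩ ?_ ?_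
    · filter_upwards [self_mem_nhdsWithin] with r hr using hR.φ_mem r hr
    · filter_upwards [self_mem_nhdsWithin] with r hr using hC.test_lap_mem (hR.φ_mem r hr).1
    · filter_upwards [self_mem_nhdsWithin] with r hr
      filter_upwards [hB0 r hr] with x hx using ⟨hx.1, hx.2.2.1, hx.2.2.2.2.1⟩
    · filter_upwards [hB0 t ht] with x hx using ⟨hx.1, hx.2.2.1, hx.2.2.2.2.1⟩
  have stu : ∀ t ∈ Icc a b, C.STo (𝓝[Icc a b] t) u (u t) := by
    intro t ht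
    refine STo_mk hC (B := B0) ?_ (hR.u_mem t ht) (hD.DW_WTo (reg_DWu hC hB hR ht)
      (hC.test_A (hR.u_mem t ht).1).1) ⟨?_, hC.test_lap_mem (hR.u_mem t ht).1, hR.cu t ht⟩ ?_ ?_
    · filter_upwards [self_mem_nhdsWithin] with r hr using hR.u_mem r hr
    · filter_upwards [self_mem_nhdsWithin] with r hr using hC.test_lap_mem (hR.u_mem r hr).1
    · filter_upwards [self_mem_nhdsWithin] with r hr
      filter_upwards [hB0 r hr] with x hx using ⟨hx.2.1, hx.2.2.2.1, hx.2.2.2.2.2⟩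
    · filter_upwards [hB0 t ht] with x hx using ⟨hx.2.1, hx.2.2.2.1, hx.2.2.2.2.2⟩
  have stL : ∀ t ∈ Icc a b, C.STo (𝓝[Icc a b] t) (LL ε φ u) (LL ε φ u t) := fun t ht =>
    hC.STo_smul hB ε⁻¹ (hC.STo_sub hB (stφ t ht) (stu t ht))
  refine ⟨fun t ht => ?_, fun t ht => ?_, fun t ht => (reg_DWθ hC hB hR ht).lim, fun t ht => ?_, ?_⟩
  · obtain ⟨c1, c2, c3⟩ := ex_testI hC hB (LT t ht)
    exact ⟨LT t ht, reg_th hC hB hR ht, c1, c2, c3⟩
  · obtain ⟨c1, c2, c3⟩ := ex_testI hC hB (LT t ht)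
    have h1 := hD.DW_ex (reg_DWL hC hB hR ht) ht LA hKb hKg
    have hθ := hC.test_A (reg_th hC hB hR ht).1
    have e : ex (LL ε φ u t) * (-C.lap (th φ u t) - C.Γ (LL ε φ u t) (th φ u t))
        = -(rh ε φ u t * C.lap (th φ u t) + C.Γ (th φ u t) (rh ε φ u t - 1)) := by
      have e1 : rh ε φ u t = ex (LL ε φ u t) := rfl
      rw [e1, hC.symm _ hθ.1 _ (hC.test_A c1.1).1, c2 _ hθ.1]
      ring
    rw [e] at h1
    exact h1.lim
  · exact (hC.STo_ex hB (stL t ht)).lap.lim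
  · -- the bounds
    have hεi : 0 < ε⁻¹ := inv_pos.2 hR.hε
    set Q : ℝ := Real.exp |Kb| with hQ
    have Q1 : 1 ≤ Q := Real.one_le_exp (abs_nonneg _)
    have Q0 : 0 < Q := Real.exp_pos _
    set S : ℝ := ε⁻¹ * (2 * |B0|) with hS
    have S0 : 0 ≤ S := by positivity
    refine ⟨Q + Q * Q * |Kg| + Q * (S + |Kg|), fun t ht => ?_⟩
    obtain ⟨c1, c2, c3⟩ := ex_testI hC hB (LT t ht)
    have L1 := LA t ht
    have hlap : C.lap (LL ε φ u t) = ε⁻¹ • (C.lap (φ t) - C.lap (u t)) := by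
      unfold LL
      have k1 := hC.testI_smul hB (-1) (hR.u_mem t ht)
      have e : φ t - u t = φ t + (-1 : ℝ) • u t := by rw [neg_smul, one_smul]; ring
      rw [hC.lap_smul hB _ (by rw [e]; exact hC.test_add hB (hR.φ_mem t ht).1 k1.1), e,
        hC.lap_add hB (hR.φ_mem t ht).1 k1.1, hC.lap_smul hB _ (hR.u_mem t ht).1]
      algebra
    have e2 : C.Γ (ex (LL ε φ u t) - 1) (ex (LL ε φ u t) - 1)
        = ex (LL ε φ u t) * (ex (LL ε φ u t) * C.Γ (LL ε φ u t) (LL ε φ u t)) := by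
      have wA := hC.test_A c1.1
      rw [c2 _ wA.1, hC.symm _ L1.1 _ wA.1, c2 _ L1.1]
    have er : rh ε φ u t = ex (LL ε φ u t) := rfl
    rw [er, c3, e2]
    filter_upwards [hKb t ht, hKg t ht, hB0 t ht, ex_ae (LL ε φ u t), hD.Γ_nonneg_ae L1.1,
      mul_ae (ex (LL ε φ u t)) (ex (LL ε φ u t) * C.Γ (LL ε φ u t) (LL ε φ u t)),
      mul_ae (ex (LL ε φ u t)) (C.Γ (LL ε φ u t) (LL ε φ u t)),
      mul_ae (ex (LL ε φ u t)) (C.lap (LL ε φ u t) + C.Γ (LL ε φ u t) (LL ε φ u t)),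
      add_ae (C.lap (LL ε φ u t)) (C.Γ (LL ε φ u t) (LL ε φ u t)), eq_iff_ae.1 hlap,
      smul_ae (C.lap (φ t) - C.lap (u t)) ε⁻¹, sub_ae (C.lap (φ t)) (C.lap (u t))]
      with x a1 a2 a3 a4 a5 a6 a7 a8 a9 a10 a11 a12
    have r1 : ex (LL ε φ u t) x ≤ Q := by
      rw [a4]; exact Real.exp_le_exp.2 ((le_abs_self _).trans (a1.trans (le_abs_self _)))
    have r2 : Q⁻¹ ≤ ex (LL ε φ u t) x := by
      rw [a4, hQ, ← Real.exp_neg]
      refine Real.exp_le_exp.2 ?_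
      have := neg_abs_le (LL ε φ u t x)
      have := a1.trans (le_abs_self Kb)
      linarith
    have r0 : 0 < ex (LL ε φ u t) x := by rw [a4]; exact Real.exp_pos _
    have g1 : C.Γ (LL ε φ u t) (LL ε φ u t) x ≤ |Kg| := a2.trans (le_abs_self _)
    have l1 : |C.lap (LL ε φ u t) x| ≤ S := by
      rw [a10, a11, a12, abs_mul, abs_of_pos hεi, hS]
      refine mul_le_mul_of_nonneg_left ?_ hεi.le
      refine (abs_sub _ _).trans ?_
      have y1 := a3.2.2.2.2.1.trans (le_abs_self B0)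
      have y2 := a3.2.2.2.2.2.trans (le_abs_self B0)
      linarith
    have pB : Q ≤ Q + Q * Q * |Kg| + Q * (S + |Kg|) := by
      have : 0 ≤ Q * Q * |Kg| := by positivity
      have : 0 ≤ Q * (S + |Kg|) := by positivity
      linarith
    refine ⟨(inv_anti₀ Q0 pB).trans r2, r1.trans pB, ?_, ?_⟩
    · rw [a6, a7]
      have : ex (LL ε φ u t) x * (ex (LL ε φ u t) x * C.Γ (LL ε φ u t) (LL ε φ u t) x)
          ≤ Q * (Q * |Kg|) := by gcongr
      have : 0 ≤ Q * (S + |Kg|) := by positivity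
      nlinarith
    · rw [a8, a9, abs_mul, abs_of_pos r0]
      have z1 : |C.lap (LL ε φ u t) x + C.Γ (LL ε φ u t) (LL ε φ u t) x| ≤ S + |Kg| := by
        refine (abs_add_le _ _).trans (add_le_add l1 ?_)
        rw [abs_of_nonneg a5]; exact g1
      have : ex (LL ε φ u t) x * |C.lap (LL ε φ u t) x + C.Γ (LL ε φ u t) (LL ε φ u t) x|
          ≤ Q * (S + |Kg|) := by gcongr
      have : 0 ≤ Q * Q * |Kg| := by positivity
      linarith

end Vale.Agent.P233.H343
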