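import Vale.Agent.P233.Gig.Defs

set_option linter.all false

open MeasureTheory Filter Topology Set
open scoped ENNReal NNReal

universe u

namespace Vale.Agent.P233.H343

variable {M : Type u} [MeasurableSpace M] {m : Measure M} {C : Calc m}

theorem ex_ae (f : M →ₘ[m] ℝ) : ∀ᵐ x ∂m, ex f x = Real.exp (f x) :=
  AEEqFun.coeFn_comp _ _ f

theorem ex_add (f g : M →ₘ[m] ℝ) : ex (f + g) = ex f * ex g := by
  rw [eq_iff_ae]
  filter_upwards [ex_ae f, ex_ae g, ex_ae (f + g), add_ae f g, mul_ae (ex f) (ex g)]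
    with x h1 h2 h3 h4 h5
  rw [h3, h4, h5, h1, h2, Real.exp_add]

theorem ex_zero : ex (0 : M →ₘ[m] ℝ) = 1 := by
  rw [eq_iff_ae]
  filter_upwards [ex_ae (0 : M →ₘ[m] ℝ), zero_ae (M := M) (m := m), one_ae (M := M) (m := m)]
    with x h1 h2 h3
  rw [h1, h2, h3, Real.exp_zero]

theorem ex_neg_mul (f : M →ₘ[m] ℝ) : ex (-f) * ex f = 1 := by
  rw [← ex_add, neg_add_cancel, ex_zero]

theorem ex_nonneg (f : M →ₘ[m] ℝ) : 0 ≤ ex f := by
  rw [nonneg_iff_ae]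
  filter_upwards [ex_ae f] with x h1
  rw [h1]; positivity

theorem ex_testI (hC : IsGamma C) {κ : ℝ} (hB : C.BEi κ) {f : M →ₘ[m] ℝ} (hf : f ∈ C.TestI) :
    ex f - 1 ∈ C.TestI ∧ (∀ g ∈ C.W, C.Γ (ex f - 1) g = ex f * C.Γ f g) ∧
      C.lap (ex f - 1) = ex f * (C.lap f + C.Γ f f) := by
  obtain ⟨g, hg, h1, h2, h3⟩ := hC.testI_comp hB hf (fun t => Real.exp t - 1)
    (by fun_prop) (by simp)
  have hd : deriv (fun t : ℝ => Real.exp t - 1) = Real.exp := by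
    ext t; simp
  have e : g = ex f - 1 := by
    rw [eq_iff_ae]
    filter_upwards [h1, ex_ae f, sub_ae (ex f) 1, one_ae (M := M) (m := m)] with x a1 a2 a3 a4
    rw [a1, a3, a2, a4]
  rw [← e]
  refine ⟨hg, fun k hk => ?_, ?_⟩
  · rw [eq_iff_ae]
    filter_upwards [h2 k hk, ex_ae f, mul_ae (ex f) (C.Γ f k)] with x a1 a2 a3
    rw [a1, a3, a2, hd]
  · rw [eq_iff_ae]
    filter_upwards [h3, ex_ae f, mul_ae (ex f) (C.lap f + C.Γ f f), add_ae (C.lap f) (C.Γ f f)]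
      with x a1 a2 a3 a4
    rw [a1, a3, a4, a2, hd, Real.deriv_exp]
    ring

theorem ex_top {f : M →ₘ[m] ℝ} (hf : MemLp f ∞ m) : MemLp (ex f) ∞ m := by
  obtain ⟨K, hK⟩ := mem_top_iff.1 hf
  refine mem_top_iff.2 ⟨Real.exp K, ?_⟩
  filter_upwards [hK, ex_ae f] with x h1 h2
  rw [h2, abs_of_pos (Real.exp_pos _)]
  exact Real.exp_le_exp.2 ((le_abs_self _).trans h1)

end Vale.Agent.P233.H343
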