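import Vale.Agent.P233.H343.Stat8
import Vale.Agent.P233.Gig.IfB
import Vale.Agent.P233.H66.Time3

set_option linter.all false

open MeasureTheory Filter Topology Set
open scoped ENNReal NNReal

universe u

namespace Vale.Agent.P233.H343

variable {M : Type u} [MeasurableSpace M] {m : Measure M} {C : Calc m}

/-! ### the chain rule for `exp` in `L²` -/

theorem cont_eq : Continuous (dslope Real.exp 0) := by
  rw [continuous_iff_continuousAt]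
  intro z
  by_cases h : z = 0
  · subst h
    exact continuousAt_dslope_same.2 Real.differentiableAt_exp
  · exact (continuousAt_dslope_of_ne h).2 Real.continuous_exp.continuousAt

theorem exp_sub_eq (x y : ℝ) :
    Real.exp x - Real.exp y = (Real.exp y * dslope Real.exp 0 (x - y)) * (x - y) := by
  have h := sub_smul_dslope Real.exp 0 (x - y)
  rw [sub_zero, smul_eq_mul, Real.exp_zero] at h
  have h2 : Real.exp x = Real.exp y * Real.exp (x - y) := by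
    rw [← Real.exp_add]; congr 1; ring
  rw [mul_assoc, mul_comm (dslope Real.exp 0 (x - y)), h, mul_sub, mul_one, ← h2]

/-- the divided difference of `exp` -/
noncomputable def eq2 (f g : M →ₘ[m] ℝ) : M →ₘ[m] ℝ :=
  AEEqFun.comp₂ (fun x y => Real.exp y * dslope Real.exp 0 (x - y))
    ((Real.continuous_exp.comp continuous_snd).mul
      (cont_eq.comp (continuous_fst.sub continuous_snd))) f g

theorem eq2_ae (f g : M →ₘ[m] ℝ) :
    ∀ᵐ x ∂m, eq2 f g x = Real.exp (g x) * dslope Real.exp 0 (f x - g x) :=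
  AEEqFun.coeFn_comp₂ _ _ f g

theorem ex_sub_eq (f g : M →ₘ[m] ℝ) : ex f - ex g = eq2 f g * (f - g) := by
  rw [eq_iff_ae]
  filter_upwards [ex_ae f, ex_ae g, eq2_ae f g, sub_ae (ex f) (ex g), sub_ae f g,
    mul_ae (eq2 f g) (f - g)] with x a1 a2 a3 a4 a5 a6
  rw [a4, a6, a5, a3, a1, a2, exp_sub_eq]

theorem eq2_self (f : M →ₘ[m] ℝ) : eq2 f f = ex f := by
  rw [eq_iff_ae]
  filter_upwards [ex_ae f, eq2_ae f f] with x a1 a2
  rw [a2, a1, sub_self, dslope_same, Real.deriv_exp, Real.exp_zero, mul_one]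

variable {F G : ℝ → M →ₘ[m] ℝ} {F' : M →ₘ[m] ℝ} {S : Set ℝ} {t : ℝ}

theorem DL2_ex (h : DL2 F F' S t) (ht : t ∈ S) (hb : BdS F S) :
    DL2 (fun r => ex (F r)) (ex (F t) * F') S t := by
  have key : ∀ r : ℕ → ℝ, Sq S t r → Tm (fun n => eq2 (F (r n)) (F t)) (ex (F t)) := by
    intro r hr
    have h1 := h.tm hb hr
    have h2 : Tm (fun _ : ℕ => F t) (F t) := Tm.const (hb.top ht)
    refine h1.map2 h2 (fun x y => Real.exp y * dslope Real.exp 0 (x - y)) ?_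
      (fun n => eq2_ae _ _) ?_
    · exact (Real.continuous_exp.comp continuous_snd).mul
        (cont_eq.comp (continuous_fst.sub continuous_snd))
    · have := eq2_ae (F t) (F t)
      rw [eq2_self] at this
      exact this
  have tt : ∀ r ∈ S, MemLp (eq2 (F r) (F t)) ∞ m := by
    intro r hr
    obtain ⟨K, hK⟩ := hb
    have hc : IsCompact (Set.Icc (-K) K ×ˢ Set.Icc (-K) K) := isCompact_Icc.prod isCompact_Icc
    obtain ⟨B, hB⟩ := (hc.image_of_continuousOn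
      ((Real.continuous_exp.comp continuous_snd).mul
        (cont_eq.comp (continuous_fst.sub continuous_snd))).abs.continuousOn).bddAbove
    refine mem_top_iff.2 ⟨B, ?_⟩
    filter_upwards [eq2_ae (F r) (F t), hK r hr, hK t ht] with q e1 e2 e3
    rw [e1]
    exact hB ⟨(F r q, F t q), ⟨abs_le.1 e2, abs_le.1 e3⟩, rfl⟩
  refine DL2.of_seq (fun r hr => ?_) (mem_mul_top (ex_top (hb.top ht)) h.mem') fun r hr => ?_
  · rw [ex_sub_eq]
    exact mem_mul_top (tt r hr) (h.mem r hr)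
  · have h1 := (key r hr).mul (h.seq hr)
    simp only [ex_sub_eq]
    simp only [mul_smul_comm] at h1
    exact h1

/-- continuity of real functions along sequences of times -/
theorem cwa_of_sq {f : ℝ → ℝ} (h : ∀ r : ℕ → ℝ, Sq S t r → Tendsto (fun n => f (r n)) atTop
    (𝓝 (f t))) : ContinuousWithinAt f S t :=
  continuousWithinAt_diff_self.1 (tendsto_of_sq h)

/-! ### regular pairs -/

section reg

variable {κ ε a b : ℝ} {φ u : ℝ → M →ₘ[m] ℝ}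

theorem derW_DW (hC : IsGamma C) {f : ℝ → M →ₘ[m] ℝ} {f' : M →ₘ[m] ℝ} {J : Set ℝ}
    (h : C.DerW J f f' t) (hf : ∀ r ∈ J, f r ∈ C.W) (ht : t ∈ J) (hf' : f' ∈ C.W) :
    C.DW f f' J t :=
  ⟨fun r hr => hC.toIsDir.sub_mem (hf r hr) (hf t ht), hf', h⟩

variable (hC : IsGamma C) (hB : C.BEi κ) (hR : C.Reg ε a b φ u)

include hC hB hR

theorem reg_L (ht : t ∈ Icc a b) : LL ε φ u t ∈ C.TestI := by
  unfold LL
  have := hC.testI_smul hB (-1) (hR.u_mem t ht)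
  have h2 := hC.testI_smul hB ε⁻¹ (hC.testI_add hB (hR.φ_mem t ht) this)
  have e : φ t + (-1 : ℝ) • u t = φ t - u t := by rw [neg_smul, one_smul]; ring
  rwa [e] at h2

theorem reg_th (ht : t ∈ Icc a b) : th φ u t ∈ C.TestI := by
  unfold th
  exact hC.testI_smul hB _ (hC.testI_add hB (hR.φ_mem t ht) (hR.u_mem t ht))

theorem reg_φ' (ht : t ∈ Icc a b) :
    -((ε / 2) • C.lap (φ t)) - (2 : ℝ)⁻¹ • C.Γ (φ t) (φ t) ∈ C.W := by
  have h1 := hR.φ_mem t ht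
  exact hC.toIsDir.sub_mem (hC.toIsDir.neg_mem (hC.smul_mem _ _ (hC.test_lap_mem h1.1)))
    (hC.smul_mem _ _ (hC.Γ_mem hB h1.1 h1.1).1)

theorem reg_u' (ht : t ∈ Icc a b) :
    (ε / 2) • C.lap (u t) - (2 : ℝ)⁻¹ • C.Γ (u t) (u t) ∈ C.W := by
  have h1 := hR.u_mem t ht
  exact hC.toIsDir.sub_mem (hC.smul_mem _ _ (hC.test_lap_mem h1.1))
    (hC.smul_mem _ _ (hC.Γ_mem hB h1.1 h1.1).1)

theorem reg_DWφ (ht : t ∈ Icc a b) :
    C.DW φ (-((ε / 2) • C.lap (φ t)) - (2 : ℝ)⁻¹ • C.Γ (φ t) (φ t)) (Icc a b) t :=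
  derW_DW hC (hR.dφ t ht) (fun r hr => (hC.test_A (hR.φ_mem r hr).1).1) ht (reg_φ' hC hB hR ht)

theorem reg_DWu (ht : t ∈ Icc a b) :
    C.DW u ((ε / 2) • C.lap (u t) - (2 : ℝ)⁻¹ • C.Γ (u t) (u t)) (Icc a b) t :=
  derW_DW hC (hR.du t ht) (fun r hr => (hC.test_A (hR.u_mem r hr).1).1) ht (reg_u' hC hB hR ht)

/-- `φ = θ + (ε/2) L` -/
theorem reg_φ_eq (t : ℝ) : φ t = th φ u t + (ε / 2) • LL ε φ u t := by
  unfold th LL
  have h := hR.hε.ne'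
  rw [smul_smul, show ε / 2 * ε⁻¹ = (2 : ℝ)⁻¹ by field_simp]
  algebra

theorem reg_u_eq (t : ℝ) : u t = th φ u t - (ε / 2) • LL ε φ u t := by
  unfold th LL
  have h := hR.hε.ne'
  rw [smul_smul, show ε / 2 * ε⁻¹ = (2 : ℝ)⁻¹ by field_simp]
  algebra

theorem reg_DWL (ht : t ∈ Icc a b) :
    C.DW (LL ε φ u) (-C.lap (th φ u t) - C.Γ (LL ε φ u t) (th φ u t)) (Icc a b) t := by
  have hD := hC.toIsDir
  have h1 := hD.DW_smul ε⁻¹ (hD.DW_sub (reg_DWφ hC hB hR ht) (reg_DWu hC hB hR ht))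
  have hL := reg_L hC hB hR ht
  have hθ := reg_th hC hB hR ht
  have hφ := hR.φ_mem t ht
  have hu := hR.u_mem t ht
  have LA := hC.test_A hL.1
  have θA := hC.test_A hθ.1
  have φA := hC.test_A hφ.1
  have uA := hC.test_A hu.1
  have e : ε⁻¹ • (-((ε / 2) • C.lap (φ t)) - (2 : ℝ)⁻¹ • C.Γ (φ t) (φ t)
      - ((ε / 2) • C.lap (u t) - (2 : ℝ)⁻¹ • C.Γ (u t) (u t)))
      = -C.lap (th φ u t) - C.Γ (LL ε φ u t) (th φ u t) := by
    have h := hR.hε.ne'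
    have e1 : C.lap (th φ u t) = (2 : ℝ)⁻¹ • (C.lap (φ t) + C.lap (u t)) := by
      unfold th
      rw [hC.lap_smul hB _ (hC.test_add hB hφ.1 hu.1), hC.lap_add hB hφ.1 hu.1]
    have e2 : C.Γ (LL ε φ u t) (th φ u t)
        = (ε⁻¹ * (2 : ℝ)⁻¹) • (C.Γ (φ t) (φ t) - C.Γ (u t) (u t)) := by
      unfold th LL
      rw [hC.smul_left _ _ (hD.sub_mem φA.1 uA.1) _ (hC.smul_mem _ _ (hC.add_mem _ φA.1 _ uA.1)),
        hD.Γ_smul_right _ (hD.sub_mem φA.1 uA.1) (hC.add_mem _ φA.1 _ uA.1),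
        hD.Γ_add_right (hD.sub_mem φA.1 uA.1) φA.1 uA.1, hD.Γ_sub_left φA.1 uA.1 φA.1,
        hD.Γ_sub_left φA.1 uA.1 uA.1, hC.symm _ uA.1 _ φA.1, smul_smul]
      congr 1
      ring
    rw [e1, e2]
    have e3 : ε⁻¹ • (-((ε / 2) • C.lap (φ t)) - (2 : ℝ)⁻¹ • C.Γ (φ t) (φ t)
        - ((ε / 2) • C.lap (u t) - (2 : ℝ)⁻¹ • C.Γ (u t) (u t)))
        = -((ε⁻¹ * (ε / 2)) • (C.lap (φ t) + C.lap (u t)))
          - (ε⁻¹ * (2 : ℝ)⁻¹) • (C.Γ (φ t) (φ t) - C.Γ (u t) (u t)) := by algebra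
    rw [e3, show ε⁻¹ * (ε / 2) = (2 : ℝ)⁻¹ by field_simp]
  rw [e] at h1
  exact h1

theorem reg_DWθ (ht : t ∈ Icc a b) :
    C.DW (th φ u) (-((2 : ℝ)⁻¹ • C.Γ (th φ u t) (th φ u t)) -
      (ε ^ 2 / 8) • ((2 : ℝ) • C.lap (LL ε φ u t) + C.Γ (LL ε φ u t) (LL ε φ u t)))
      (Icc a b) t := by
  have hD := hC.toIsDir
  have h1 := hD.DW_smul (2 : ℝ)⁻¹ (hD.DW_add (reg_DWφ hC hB hR ht) (reg_DWu hC hB hR ht))
  have hL := reg_L hC hB hR ht
  have hθ := reg_th hC hB hR ht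
  have hφ := hR.φ_mem t ht
  have hu := hR.u_mem t ht
  have LA := hC.test_A hL.1
  have θA := hC.test_A hθ.1
  have φA := hC.test_A hφ.1
  have uA := hC.test_A hu.1
  have h := hR.hε.ne'
  have eL := hC.smul_mem (ε / 2) _ LA.1
  have e0 : C.lap (LL ε φ u t) = ε⁻¹ • (C.lap (φ t) - C.lap (u t)) := by
    unfold LL
    have k1 := hC.testI_smul hB (-1) hu
    have e : φ t - u t = φ t + (-1 : ℝ) • u t := by rw [neg_smul, one_smul]; ring
    rw [hC.lap_smul hB _ (by rw [e]; exact hC.test_add hB hφ.1 k1.1), e,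
      hC.lap_add hB hφ.1 k1.1, hC.lap_smul hB _ hu.1]
    algebra
  have e1 : C.Γ (φ t) (φ t) = C.Γ (th φ u t) (th φ u t) + ε • C.Γ (LL ε φ u t) (th φ u t)
      + (ε ^ 2 / 4) • C.Γ (LL ε φ u t) (LL ε φ u t) := by
    have := reg_φ_eq hC hB hR t
    rw [this, hC.add_left _ θA.1 _ eL _ (hC.add_mem _ θA.1 _ eL), hD.Γ_add_right θA.1 θA.1 eL,
      hD.Γ_add_right eL θA.1 eL, hC.smul_left _ _ LA.1 _ θA.1, hC.smul_left _ _ LA.1 _ eL,
      hD.Γ_smul_right _ θA.1 LA.1, hD.Γ_smul_right _ LA.1 LA.1, hC.symm _ θA.1 _ LA.1]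
    algebra
  have e2 : C.Γ (u t) (u t) = C.Γ (th φ u t) (th φ u t) - ε • C.Γ (LL ε φ u t) (th φ u t)
      + (ε ^ 2 / 4) • C.Γ (LL ε φ u t) (LL ε φ u t) := by
    have := reg_u_eq hC hB hR t
    rw [this, hD.Γ_sub_left θA.1 eL (hD.sub_mem θA.1 eL), hD.Γ_sub_right θA.1 θA.1 eL,
      hD.Γ_sub_right eL θA.1 eL, hC.smul_left _ _ LA.1 _ θA.1, hC.smul_left _ _ LA.1 _ eL,
      hD.Γ_smul_right _ θA.1 LA.1, hD.Γ_smul_right _ LA.1 LA.1, hC.symm _ θA.1 _ LA.1]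
    algebra
  have e : (2 : ℝ)⁻¹ • (-((ε / 2) • C.lap (φ t)) - (2 : ℝ)⁻¹ • C.Γ (φ t) (φ t)
      + ((ε / 2) • C.lap (u t) - (2 : ℝ)⁻¹ • C.Γ (u t) (u t)))
      = -((2 : ℝ)⁻¹ • C.Γ (th φ u t) (th φ u t)) -
      (ε ^ 2 / 8) • ((2 : ℝ) • C.lap (LL ε φ u t) + C.Γ (LL ε φ u t) (LL ε φ u t)) := by
    rw [e1, e2, e0, smul_smul (2 : ℝ) ε⁻¹, smul_add (ε ^ 2 / 8), smul_smul (ε ^ 2 / 8),
      show ε ^ 2 / 8 * (2 * ε⁻¹) = ε / 4 by field_simp; ring]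
    algebra
  rw [e] at h1
  exact h1

theorem reg_bd : BdS φ (Icc a b) ∧ BdS u (Icc a b) ∧ C.BdG φ (Icc a b) ∧ C.BdG u (Icc a b) ∧
    BdS (LL ε φ u) (Icc a b) ∧ BdS (th φ u) (Icc a b) ∧ C.BdG (LL ε φ u) (Icc a b) ∧
    C.BdG (th φ u) (Icc a b) ∧ BdS (rh ε φ u) (Icc a b) := by
  have hD := hC.toIsDir
  obtain ⟨B, hBd⟩ := hR.bdd
  have b1 : BdS φ (Icc a b) := ⟨B, fun r hr => by
    filter_upwards [hBd r hr] with x hx using hx.1⟩
  have b2 : BdS u (Icc a b) := ⟨B, fun r hr => by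
    filter_upwards [hBd r hr] with x hx using hx.2.1⟩
  have b3 : C.BdG φ (Icc a b) := ⟨B, fun r hr => by
    filter_upwards [hBd r hr] with x hx using hx.2.2.1⟩
  have b4 : C.BdG u (Icc a b) := ⟨B, fun r hr => by
    filter_upwards [hBd r hr] with x hx using hx.2.2.2.1⟩
  have w1 : ∀ r ∈ Icc a b, φ r ∈ C.W := fun r hr => (hC.test_A (hR.φ_mem r hr).1).1
  have w2 : ∀ r ∈ Icc a b, u r ∈ C.W := fun r hr => (hC.test_A (hR.u_mem r hr).1).1
  have b5 : BdS (LL ε φ u) (Icc a b) := (b1.sub b2).smul _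
  have b6 : BdS (th φ u) (Icc a b) := (b1.add b2).smul _
  have b4' := hD.BdG_smul (-1) b4 w2
  have w3 : ∀ r ∈ Icc a b, (-1 : ℝ) • u r ∈ C.W := fun r hr => hC.smul_mem _ _ (w2 r hr)
  have b7 : C.BdG (fun r => φ r - u r) (Icc a b) := by
    have := hD.BdG_add b3 b4' w1 w3
    have e : (fun r => φ r + (-1 : ℝ) • u r) = fun r => φ r - u r := by
      funext r; rw [neg_smul, one_smul]; ring
    rwa [e] at this
  have b8 : C.BdG (LL ε φ u) (Icc a b) :=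
    hD.BdG_smul ε⁻¹ b7 (fun r hr => hD.sub_mem (w1 r hr) (w2 r hr))
  have b9 : C.BdG (th φ u) (Icc a b) :=
    hD.BdG_smul (2 : ℝ)⁻¹ (hD.BdG_add b3 b4 w1 w2) (fun r hr => hC.add_mem _ (w1 r hr) _ (w2 r hr))
  refine ⟨b1, b2, b3, b4, b5, b6, b8, b9, ?_⟩
  obtain ⟨K, hK⟩ := b5
  refine ⟨Real.exp K, fun r hr => ?_⟩
  have e : rh ε φ u r = ex (LL ε φ u r) := rfl
  filter_upwards [hK r hr, ex_ae (LL ε φ u r)] with x a1 a2
  rw [e, a2, abs_of_pos (Real.exp_pos _)]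
  exact Real.exp_le_exp.2 ((le_abs_self _).trans a1)

theorem reg_DL2_rh (ht : t ∈ Icc a b) :
    DL2 (rh ε φ u) (-(rh ε φ u t * C.lap (th φ u t) + C.Γ (th φ u t) (rh ε φ u t - 1)))
      (Icc a b) t := by
  have h1 := DL2_ex (hC.toIsDir.DW_DL2 (reg_DWL hC hB hR ht)) ht (reg_bd hC hB hR).2.2.2.2.1
  have hL := reg_L hC hB hR ht
  have hθ := reg_th hC hB hR ht
  obtain ⟨rT, rΓ, -⟩ := ex_testI hC hB hL
  have e : ex (LL ε φ u t) * (-C.lap (th φ u t) - C.Γ (LL ε φ u t) (th φ u t))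
      = -(rh ε φ u t * C.lap (th φ u t) + C.Γ (th φ u t) (rh ε φ u t - 1)) := by
    have e1 : rh ε φ u t = ex (LL ε φ u t) := rfl
    rw [e1, hC.symm _ (hC.test_A hθ.1).1 _ (hC.test_A rT.1).1, rΓ _ (hC.test_A hθ.1).1]
    ring
  rw [e] at h1
  exact h1

/-- convergence of everything along sequences of times -/
theorem reg_seq (ht : t ∈ Icc a b) {r : ℕ → ℝ} (hr : Sq (Icc a b) t r) :
    C.TW (fun n => LL ε φ u (r n)) (LL ε φ u t) ∧ C.TW (fun n => th φ u (r n)) (th φ u t) ∧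
    Tm (fun n => rh ε φ u (r n)) (rh ε φ u t) ∧
    T2 (fun n => C.lap (LL ε φ u (r n))) (C.lap (LL ε φ u t)) ∧
    T2 (fun n => C.lap (th φ u (r n))) (C.lap (th φ u t)) := by
  have hD := hC.toIsDir
  have bd := reg_bd hC hB hR
  have lf : ∀ s ∈ Icc a b, MemLp (C.lap (φ s)) 2 m := fun s hs =>
    (hC.test_isLap (hR.φ_mem s hs).1).2.1
  have lu : ∀ s ∈ Icc a b, MemLp (C.lap (u s)) 2 m := fun s hs =>
    (hC.test_isLap (hR.u_mem s hs).1).2.1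
  have wf : ∀ s ∈ Icc a b, C.lap (φ s) ∈ C.W := fun s hs => hC.test_lap_mem (hR.φ_mem s hs).1
  have wu : ∀ s ∈ Icc a b, C.lap (u s) ∈ C.W := fun s hs => hC.test_lap_mem (hR.u_mem s hs).1
  have hr1 : Tendsto r atTop (𝓝[Icc a b] t) := tendsto_nhdsWithin_iff.2
    ⟨hr.lim, Eventually.of_forall hr.mem⟩
  have t1 : T2 (fun n => C.lap (φ (r n))) (C.lap (φ t)) :=
    ⟨fun n => lf _ (hr.mem n), lf _ ht, by
      have h1 := (hR.cφ t ht).comp hr1
      refine squeeze_zero (fun n => I_sq_nonneg _) (fun n => ?_) h1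
      exact hD.I_sq_le_nrm2 (hD.sub_mem (wf _ (hr.mem n)) (wf _ ht))⟩
  have t2 : T2 (fun n => C.lap (u (r n))) (C.lap (u t)) :=
    ⟨fun n => lu _ (hr.mem n), lu _ ht, by
      have h1 := (hR.cu t ht).comp hr1
      refine squeeze_zero (fun n => I_sq_nonneg _) (fun n => ?_) h1
      exact hD.I_sq_le_nrm2 (hD.sub_mem (wu _ (hr.mem n)) (wu _ ht))⟩
  have el : ∀ s ∈ Icc a b, C.lap (LL ε φ u s) = ε⁻¹ • (C.lap (φ s) - C.lap (u s)) := by
    intro s hs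
    unfold LL
    have k1 := hC.testI_smul hB (-1) (hR.u_mem s hs)
    have e : φ s - u s = φ s + (-1 : ℝ) • u s := by rw [neg_smul, one_smul]; ring
    rw [hC.lap_smul hB _ (by rw [e]; exact hC.test_add hB (hR.φ_mem s hs).1 k1.1), e,
      hC.lap_add hB (hR.φ_mem s hs).1 k1.1, hC.lap_smul hB _ (hR.u_mem s hs).1]
    algebra
  have et : ∀ s ∈ Icc a b, C.lap (th φ u s) = (2 : ℝ)⁻¹ • (C.lap (φ s) + C.lap (u s)) := by
    intro s hs
    unfold th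
    rw [hC.lap_smul hB _ (hC.test_add hB (hR.φ_mem s hs).1 (hR.u_mem s hs).1),
      hC.lap_add hB (hR.φ_mem s hs).1 (hR.u_mem s hs).1]
  refine ⟨hD.DW_tw (reg_DWL hC hB hR ht) (hC.test_A (reg_L hC hB hR ht).1).1 hr,
    hD.DW_tw (reg_DWθ hC hB hR ht) (hC.test_A (reg_th hC hB hR ht).1).1 hr,
    (reg_DL2_rh hC hB hR ht).tm bd.2.2.2.2.2.2.2.2 hr, ?_, ?_⟩
  · have := (t1.sub t2).smul ε⁻¹
    rw [el t ht]
    have e : (fun n => C.lap (LL ε φ u (r n))) = fun n => ε⁻¹ • (C.lap (φ (r n)) - C.lap (u (r n))) := by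
      funext n; exact el _ (hr.mem n)
    rw [e]
    exact this
  · have := (t1.add t2).smul (2 : ℝ)⁻¹
    rw [et t ht]
    have e : (fun n => C.lap (th φ u (r n)))
        = fun n => (2 : ℝ)⁻¹ • (C.lap (φ (r n)) + C.lap (u (r n))) := by
      funext n; exact et _ (hr.mem n)
    rw [e]
    exact this

end reg

end Vale.Agent.P233.H343
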