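import Vale.Agent.P233.H343.Ex

set_option linter.all false

open MeasureTheory Filter Topology Set
open scoped ENNReal NNReal

universe u

namespace Vale.Agent.P233.H343

variable {M : Type u} [MeasurableSpace M] {m : Measure M} {C : Calc m}

theorem top_one_add {r : M →ₘ[m] ℝ} (hr : MemLp r ∞ m) : MemLp (1 + r : M →ₘ[m] ℝ) ∞ m :=
  mem_add mem_top_one hr

/-- integration by parts with the weight `1 + r` -/
theorem ibp (hC : IsGamma C) {r F l g : M →ₘ[m] ℝ} (hr : r ∈ C.A) (hr' : MemLp (C.Γ r r) ∞ m)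
    (hF : C.IsLap F l) (hg : g ∈ C.W) :
    I ((1 + r) * C.Γ F g) = -I (g * (C.Γ r F + (1 + r) * l)) := by
  have hD := hC.toIsDir
  have h1 : r * g ∈ C.W := hD.mul_mem_lip hr hr' hg
  have hw : g + r * g ∈ C.W := hC.add_mem _ hg _ h1
  have h2 := hF.2.2 _ hw
  change I (C.Γ F (g + r * g)) = -I (l * (g + r * g)) at h2
  have h3 : C.Γ F (r * g) = r * C.Γ F g + g * C.Γ r F := by
    rw [hC.symm _ hF.1 _ h1, hD.Γ_mul_left_lip hr hr' hg hF.1, hC.symm _ hg _ hF.1]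
  rw [hD.Γ_add_right hF.1 hg h1, h3] at h2
  have m1 : MemLp (C.Γ F g) 1 m := hD.Γ_mem1 hF.1 hg
  have m2 : MemLp (g * C.Γ r F : M →ₘ[m] ℝ) 1 m :=
    mem_mul_22 (hC.memLp _ hg) (hD.Γ_mem2 hr.1 hr' hF.1)
  have m3 : MemLp ((1 + r) * C.Γ F g : M →ₘ[m] ℝ) 1 m := mem_mul_top (top_one_add hr.2) m1
  have m4 : MemLp (g * ((1 + r) * l) : M →ₘ[m] ℝ) 1 m :=
    mem_mul_22 (hC.memLp _ hg) (mem_mul_top (top_one_add hr.2) hF.2.1)
  have e1 : C.Γ F g + (r * C.Γ F g + g * C.Γ r F) = (1 + r) * C.Γ F g + g * C.Γ r F := by ring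
  have e2 : l * (g + r * g) = g * ((1 + r) * l) := by ring
  rw [e1, e2, I_add m3 m2] at h2
  have e3 : g * (C.Γ r F + (1 + r) * l) = g * C.Γ r F + g * ((1 + r) * l) := by ring
  rw [e3, I_add m2 m4]
  linarith

/-- `∫ ρ ⟨∇b, ∇(2 Δ L + |∇L|²)⟩ = 2 ∫ ρ Hess b (∇L,∇L) + 2 ∫ ρ ⟨∇Δb, ∇L⟩` for `ρ = exp L`. -/
theorem qid (hC : IsGamma C) {κ : ℝ} (hB : C.BEi κ) {b L : M →ₘ[m] ℝ} (hb : b ∈ C.Test)
    (hL : L ∈ C.TestI) :
    2 * I (ex L * C.Γ b (C.lap L)) + I (ex L * C.Γ b (C.Γ L L)) =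
      2 * I (ex L * C.hess b L L) + 2 * I (ex L * C.Γ (C.lap b) L) := by
  have hD := hC.toIsDir
  obtain ⟨rT, rΓ, rl⟩ := ex_testI hC hB hL
  set r : M →ₘ[m] ℝ := ex L - 1 with hr
  have er : ex L = 1 + r := by rw [hr]; ring
  have rA := hC.test_A rT.1
  have rL := hC.test_Γ_top rT.1
  have bA := hC.test_A hb
  have LA := hC.test_A hL.1
  have bl := hC.test_isLap hb
  have Ll := hC.test_isLap hL.1
  have lb := hC.test_lap_mem hb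
  have lL := hC.test_lap_mem hL.1
  have hbL := hC.Γ_mem hB hb hL.1
  have hLL := hC.Γ_mem hB hL.1 hL.1
  have bT := hC.test_Γ_top hb
  have LT := hC.test_Γ_top hL.1
  have et : MemLp (ex L) ∞ m := ex_top LA.2
  have gbL : MemLp (C.Γ b L) 2 m := hC.memLp _ hbL.1
  have gLL : MemLp (C.Γ L L) 2 m := hC.memLp _ hLL.1
  have rb : C.Γ r b = ex L * C.Γ L b := rΓ _ bA.1
  have rL' : C.Γ r L = ex L * C.Γ L L := rΓ _ LA.1
  have sy : C.Γ L b = C.Γ b L := hC.symm _ LA.1 _ bA.1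
  -- the four basic integrals
  have m1 : MemLp (ex L * (C.lap L * C.Γ b L) : M →ₘ[m] ℝ) 1 m :=
    mem_mul_top et (mem_mul_22 Ll.2.1 gbL)
  have m2 : MemLp (ex L * (C.lap b * C.lap L) : M →ₘ[m] ℝ) 1 m :=
    mem_mul_top et (mem_mul_22 bl.2.1 Ll.2.1)
  have m3 : MemLp (ex L * (C.Γ L L * C.Γ b L) : M →ₘ[m] ℝ) 1 m :=
    mem_mul_top et (mem_mul_22 gLL gbL)
  have m4 : MemLp (ex L * (C.lap b * C.Γ L L) : M →ₘ[m] ℝ) 1 m :=
    mem_mul_top et (mem_mul_22 bl.2.1 gLL)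
  have a1 := ibp hC rA rL bl lL
  have a2 := ibp hC rA rL bl hLL.1
  have a3 := ibp hC rA rL Ll hbL.1
  have a4 := ibp hC rA rL Ll lb
  rw [← er] at a1 a2 a3 a4
  rw [rb, sy] at a1 a2
  rw [rL'] at a3 a4
  have b1 : C.lap L * (ex L * C.Γ b L + ex L * C.lap b)
      = ex L * (C.lap L * C.Γ b L) + ex L * (C.lap b * C.lap L) := by ring
  have b2 : C.Γ L L * (ex L * C.Γ b L + ex L * C.lap b)
      = ex L * (C.Γ L L * C.Γ b L) + ex L * (C.lap b * C.Γ L L) := by ring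
  have b3 : C.Γ b L * (ex L * C.Γ L L + ex L * C.lap L)
      = ex L * (C.Γ L L * C.Γ b L) + ex L * (C.lap L * C.Γ b L) := by ring
  have b4 : C.lap b * (ex L * C.Γ L L + ex L * C.lap L)
      = ex L * (C.lap b * C.Γ L L) + ex L * (C.lap b * C.lap L) := by ring
  rw [b1, I_add m1 m2] at a1
  rw [b2, I_add m3 m4] at a2
  rw [b3, I_add m3 m1] at a3
  rw [b4, I_add m4 m2, hC.symm _ LA.1 _ lb] at a4
  -- the Hessian
  have g1 : MemLp (C.Γ L (C.Γ b L)) 1 m := hD.Γ_mem1 LA.1 hbL.1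
  have g2 : MemLp (C.Γ b (C.Γ L L)) 1 m := hD.Γ_mem1 bA.1 hLL.1
  have c1 : ex L * C.hess b L L = ex L * C.Γ L (C.Γ b L) - (2 : ℝ)⁻¹ • (ex L * C.Γ b (C.Γ L L)) := by
    unfold Calc.hess
    algebra
  rw [c1, I_sub (mem_mul_top et g1) (mem_smul _ (mem_mul_top et g2)), I_smul, a3, a4]
  rw [a1]
  linarith

/-- The static part of `d/dt ∫ ρ ⟨∇b,∇θ⟩`. -/
theorem b7_stat (hC : IsGamma C) {κ : ℝ} (hB : C.BEi κ) {b L θ : M →ₘ[m] ℝ} (hb : b ∈ C.Test)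
    (hL : L ∈ C.TestI) (hθ : θ ∈ C.Test) (ε : ℝ) :
    -I ((C.Γ (ex L - 1) θ + ex L * C.lap θ) * C.Γ b θ)
      + I (ex L * C.Γ b (-((2 : ℝ)⁻¹ • C.Γ θ θ) - (ε ^ 2 / 8) • ((2 : ℝ) • C.lap L + C.Γ L L))) =
    I (ex L * C.hess b θ θ) - ε ^ 2 / 4 * I (ex L * C.hess b L L)
      - ε ^ 2 / 4 * I (ex L * C.Γ (C.lap b) L) := by
  have hD := hC.toIsDir
  obtain ⟨rT, rΓ, rl⟩ := ex_testI hC hB hL
  have q := qid hC hB hb hL
  have er : ex L = 1 + (ex L - 1) := by ring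
  have rA := hC.test_A rT.1
  have rL := hC.test_Γ_top rT.1
  have bA := hC.test_A hb
  have LA := hC.test_A hL.1
  have θA := hC.test_A hθ
  have θl := hC.test_isLap hθ
  have hbθ := hC.Γ_mem hB hb hθ
  have hθθ := hC.Γ_mem hB hθ hθ
  have hLL := hC.Γ_mem hB hL.1 hL.1
  have lL := hC.test_lap_mem hL.1
  have et : MemLp (ex L) ∞ m := ex_top LA.2
  have a1 := ibp hC rA rL θl hbθ.1
  rw [← er] at a1
  have e1 : (C.Γ (ex L - 1) θ + ex L * C.lap θ) * C.Γ b θ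
      = C.Γ b θ * (C.Γ (ex L - 1) θ + ex L * C.lap θ) := by ring
  rw [e1, ← a1]
  have w1 : C.Γ b (-((2 : ℝ)⁻¹ • C.Γ θ θ) - (ε ^ 2 / 8) • ((2 : ℝ) • C.lap L + C.Γ L L))
      = -((2 : ℝ)⁻¹ • C.Γ b (C.Γ θ θ)) - (ε ^ 2 / 8) • ((2 : ℝ) • C.Γ b (C.lap L)
        + C.Γ b (C.Γ L L)) := by
    have k1 := hC.smul_mem (2 : ℝ)⁻¹ _ hθθ.1
    have k2 := hC.smul_mem (2 : ℝ) _ lL
    have k3 := hC.add_mem _ k2 _ hLL.1
    rw [hD.Γ_sub_right bA.1 (hD.neg_mem k1) (hC.smul_mem _ _ k3), hD.Γ_neg_right bA.1 k1,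
      hD.Γ_smul_right _ bA.1 hθθ.1, hD.Γ_smul_right _ bA.1 k3, hD.Γ_add_right bA.1 k2 hLL.1,
      hD.Γ_smul_right _ bA.1 lL]
  have g1 : MemLp (C.Γ θ (C.Γ b θ)) 1 m := hD.Γ_mem1 θA.1 hbθ.1
  have g2 : MemLp (C.Γ b (C.Γ θ θ)) 1 m := hD.Γ_mem1 bA.1 hθθ.1
  have g3 : MemLp (C.Γ b (C.lap L)) 1 m := hD.Γ_mem1 bA.1 lL
  have g4 : MemLp (C.Γ b (C.Γ L L)) 1 m := hD.Γ_mem1 bA.1 hLL.1
  have m1 := mem_mul_top et g1
  have m2 := mem_mul_top et g2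
  have m3 := mem_mul_top et g3
  have m4 := mem_mul_top et g4
  have w2 : ex L * (-((2 : ℝ)⁻¹ • C.Γ b (C.Γ θ θ)) - (ε ^ 2 / 8) • ((2 : ℝ) • C.Γ b (C.lap L)
        + C.Γ b (C.Γ L L)))
      = -((2 : ℝ)⁻¹ • (ex L * C.Γ b (C.Γ θ θ)))
        - ((ε ^ 2 / 4) • (ex L * C.Γ b (C.lap L)) + (ε ^ 2 / 8) • (ex L * C.Γ b (C.Γ L L))) := by
    algebra
  have w3 : ex L * C.hess b θ θ
      = ex L * C.Γ θ (C.Γ b θ) - (2 : ℝ)⁻¹ • (ex L * C.Γ b (C.Γ θ θ)) := by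
    unfold Calc.hess
    algebra
  rw [w1, w2, w3, I_sub (mem_neg (mem_smul _ m2)) (mem_add (mem_smul _ m3) (mem_smul _ m4)),
    I_neg, I_smul, I_add (mem_smul _ m3) (mem_smul _ m4), I_smul, I_smul,
    I_sub m1 (mem_smul _ m2), I_smul]
  linear_combination (-ε ^ 2 / 8) * q

end Vale.Agent.P233.H343
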