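import Vale.Agent.P233.H343.Stat

set_option linter.all false

open MeasureTheory Filter Topology Set
open scoped ENNReal NNReal

universe u

namespace Vale.Agent.P233.H343

variable {M : Type u} [MeasurableSpace M] {m : Measure M} {C : Calc m}

/-- Cauchy-Schwarz with a bounded nonnegative weight -/
theorem cs_w {ρ X Y : M →ₘ[m] ℝ} (h0 : 0 ≤ ρ) (hρ : MemLp ρ ∞ m) (hX : MemLp X 2 m)
    (hY : MemLp Y 2 m) : |I (ρ * (X * Y))| ≤ √(I (ρ * X ^ 2)) * √(I (ρ * Y ^ 2)) := by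
  have mXY : MemLp (ρ * (X * Y) : M →ₘ[m] ℝ) 1 m := mem_mul_top hρ (mem_mul_22 hX hY)
  have mX : MemLp (ρ * X ^ 2 : M →ₘ[m] ℝ) 1 m := mem_mul_top hρ (mem_sq hX)
  have mY : MemLp (ρ * Y ^ 2 : M →ₘ[m] ℝ) 1 m := mem_mul_top hρ (mem_sq hY)
  have pX : 0 ≤ I (ρ * X ^ 2) := I_nonneg (mul_nonneg h0 (sq_nonneg' X))
  have pY : 0 ≤ I (ρ * Y ^ 2) := I_nonneg (mul_nonneg h0 (sq_nonneg' Y))
  have h1 : ∀ t : ℝ, 0 ≤ I (ρ * X ^ 2) + 2 * t * I (ρ * (X * Y)) + t ^ 2 * I (ρ * Y ^ 2) := by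
    intro t
    have e : ρ * (X + t • Y) ^ 2 = ρ * X ^ 2 + (2 * t) • (ρ * (X * Y)) + (t ^ 2) • (ρ * Y ^ 2) := by
      algebra
    have h2 : 0 ≤ I (ρ * (X + t • Y) ^ 2) := I_nonneg (mul_nonneg h0 (sq_nonneg' _))
    rw [e, I_add (mem_add mX (mem_smul _ mXY)) (mem_smul _ mY), I_add mX (mem_smul _ mXY),
      I_smul, I_smul] at h2
    exact h2
  have h2 := disc_of_forall h1
  rw [← Real.sqrt_mul pX]
  exact Real.abs_le_sqrt h2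

theorem w_mono {ρ X G : M →ₘ[m] ℝ} (h0 : 0 ≤ ρ) (hρ : MemLp ρ ∞ m) (hX : MemLp X 2 m)
    (hG : MemLp G 1 m) {c : ℝ} (h : ∀ᵐ x ∂m, X x ^ 2 ≤ c * G x) :
    I (ρ * X ^ 2) ≤ c * I (ρ * G) := by
  rw [← I_smul]
  refine I_mono (mem_mul_top hρ (mem_sq hX)) (mem_smul _ (mem_mul_top hρ hG)) ?_
  rw [le_iff_ae]
  filter_upwards [h, mul_ae ρ (X ^ 2), sq_ae X, smul_ae (ρ * G) c, mul_ae ρ G, nonneg_iff_ae.1 h0]
    with x a1 a2 a3 a4 a5 a6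
  rw [a2, a3, a4, a5]
  nlinarith [mul_le_mul_of_nonneg_left a1 a6]

theorem w_mono_R {ρ X G : M →ₘ[m] ℝ} (h0 : 0 ≤ ρ) (hρ : MemLp ρ ∞ m) (hX : MemLp X 2 m)
    (hG : MemLp G 1 m) {c R : ℝ} (hc : 0 ≤ c) (hG0 : 0 ≤ G) (hR : ∀ᵐ x ∂m, ρ x ≤ R)
    (h : ∀ᵐ x ∂m, X x ^ 2 ≤ c * G x) :
    I (ρ * X ^ 2) ≤ c * R * I G := by
  refine (w_mono h0 hρ hX hG h).trans ?_
  rw [mul_assoc]
  refine mul_le_mul_of_nonneg_left ?_ hc
  rw [← I_smul]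
  refine I_mono (mem_mul_top hρ hG) (mem_smul _ hG) ?_
  rw [le_iff_ae]
  filter_upwards [mul_ae ρ G, smul_ae G R, hR, nonneg_iff_ae.1 hG0] with x a1 a2 a3 a4
  rw [a1, a2]
  exact mul_le_mul_of_nonneg_right a3 a4

/-- the four terms of `∫ b ρ w ⟨∇h, ∇⟨∇F,∇k⟩⟩`, where `w = exp F`, `ω = w - 1` -/
theorem t1_eq (hC : IsGamma C) {κ : ℝ} (hB : C.BEi κ) {b L F h k : M →ₘ[m] ℝ}
    (hb : b ∈ C.TestI) (hL : L ∈ C.TestI) (hF : F ∈ C.TestI) (hh : h ∈ C.TestI)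
    (hk : k ∈ C.TestI) :
    I (b * (ex L * ex F) * C.Γ h (C.Γ F k)) =
      -(I (ex L * (C.Γ (ex F - 1) k * C.Γ b h)) + I (ex L * (b * C.Γ (ex F - 1) k * C.Γ L h))
        + I (ex L * (b * C.Γ (ex F - 1) k * C.Γ F h))
        + I (ex L * (b * C.Γ (ex F - 1) k * C.lap h))) := by
  have hD := hC.toIsDir
  have hLF := hC.testI_add hB hL hF
  obtain ⟨sT, sΓ, -⟩ := ex_testI hC hB hLF
  obtain ⟨wT, wΓ, -⟩ := ex_testI hC hB hF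
  set s : M →ₘ[m] ℝ := ex (L + F) - 1 with hs
  set ω : M →ₘ[m] ℝ := ex F - 1 with hω
  have bA := hC.test_A hb.1
  have LA := hC.test_A hL.1
  have FA := hC.test_A hF.1
  have hA := hC.test_A hh.1
  have kA := hC.test_A hk.1
  have sA := hC.test_A sT.1
  have ωA := hC.test_A wT.1
  have hFk := hC.Γ_mem hB hF.1 hk.1
  have eE : ex L * ex F = 1 + s := by rw [hs, ex_add]; ring
  have WA : b * (1 + s) ∈ C.A := by
    have : b * (1 + s) = b + b * s := by ring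
    rw [this]
    exact hD.A_add bA (hD.mul_mem_A bA sA)
  have WΓ : C.Γ (b * (1 + s)) h = (ex L * ex F) * (C.Γ b h) + b * (ex L * ex F)
      * (C.Γ L h + C.Γ F h) := by
    have e1 : b * (1 + s) = b + b * s := by ring
    have e2 := hD.mul_mem_A bA sA
    rw [e1, hC.add_left _ bA.1 _ e2.1 _ hA.1, hD.Γ_mul_left bA sA hA.1, sΓ _ hA.1,
      hC.add_left _ LA.1 _ FA.1 _ hA.1, ex_add, eE]
    ring
  have hl := hC.test_isLap hh.1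
  have PA := hD.mul_mem_A hFk WA
  have i1 := hl.2.2 _ PA.1
  change I (C.Γ h (C.Γ F k * (b * (1 + s)))) = -I (C.lap h * (C.Γ F k * (b * (1 + s)))) at i1
  rw [hD.Γ_mul_right hFk WA hA.1, hC.symm _ hA.1 _ WA.1, WΓ] at i1
  have wk : ex F * C.Γ F k = C.Γ ω k := (wΓ _ kA.1).symm
  have q1 : C.Γ F k * (ex L * ex F * C.Γ b h + b * (ex L * ex F) * (C.Γ L h + C.Γ F h))
      = ex L * (C.Γ ω k * C.Γ b h) + ex L * (b * C.Γ ω k * C.Γ L h)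
        + ex L * (b * C.Γ ω k * C.Γ F h) := by
    rw [← wk]; ring
  have q2 : C.lap h * (C.Γ F k * (b * (1 + s))) = ex L * (b * C.Γ ω k * C.lap h) := by
    rw [← wk, ← eE]; ring
  rw [q1, q2] at i1
  have et : MemLp (ex L) ∞ m := ex_top LA.2
  have gωk : MemLp (C.Γ ω k) 2 m := hC.memLp _ (hC.Γ_mem hB wT.1 hk.1).1
  have gbh : MemLp (C.Γ b h) 2 m := hC.memLp _ (hC.Γ_mem hB hb.1 hh.1).1
  have gLh : MemLp (C.Γ L h) 2 m := hC.memLp _ (hC.Γ_mem hB hL.1 hh.1).1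
  have gFh : MemLp (C.Γ F h) 2 m := hC.memLp _ (hC.Γ_mem hB hF.1 hh.1).1
  have bω : MemLp (b * C.Γ ω k : M →ₘ[m] ℝ) 2 m := mem_mul_top bA.2 gωk
  have m1 : MemLp (ex L * (C.Γ ω k * C.Γ b h) : M →ₘ[m] ℝ) 1 m :=
    mem_mul_top et (mem_mul_22 gωk gbh)
  have m2 : MemLp (ex L * (b * C.Γ ω k * C.Γ L h) : M →ₘ[m] ℝ) 1 m :=
    mem_mul_top et (mem_mul_22 bω gLh)
  have m3 : MemLp (ex L * (b * C.Γ ω k * C.Γ F h) : M →ₘ[m] ℝ) 1 m :=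
    mem_mul_top et (mem_mul_22 bω gFh)
  have m0 : MemLp (b * (1 + s) * C.Γ h (C.Γ F k) : M →ₘ[m] ℝ) 1 m :=
    mem_mul_top WA.2 (hD.Γ_mem1 hA.1 hFk.1)
  rw [add_comm, I_add m0 (mem_add (mem_add m1 m2) m3), I_add (mem_add m1 m2) m3, I_add m1 m2]
    at i1
  rw [eE]
  linarith

/-- pointwise: `⟨∇u,∇k⟩² ≤ Lk |∇u|²` -/
theorem Γ_sq_le (hD : IsDir C) {u k : M →ₘ[m] ℝ} (hu : u ∈ C.W) (hk : k ∈ C.W) {Lk : ℝ}
    (h : ∀ᵐ x ∂m, C.Γ k k x ≤ Lk) : ∀ᵐ x ∂m, C.Γ u k x ^ 2 ≤ Lk * C.Γ u u x := by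
  filter_upwards [hD.Γ_cs_ae hu hk, hD.Γ_nonneg_ae hu, h] with x a1 a2 a3
  calc C.Γ u k x ^ 2 ≤ C.Γ u u x * C.Γ k k x := a1
    _ ≤ C.Γ u u x * Lk := mul_le_mul_of_nonneg_left a3 a2
    _ = _ := mul_comm _ _

theorem t1_bd (hC : IsGamma C) {κ : ℝ} (hB : C.BEi κ) {b L F h k : M →ₘ[m] ℝ}
    (hb : b ∈ C.TestI) (hL : L ∈ C.TestI) (hF : F ∈ C.TestI) (hh : h ∈ C.TestI)
    (hk : k ∈ C.TestI) {B Lh Lk R c : ℝ} (hB0 : 0 ≤ B) (hLh : 0 ≤ Lh) (hLk : 0 ≤ Lk)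
    (hR0 : 0 ≤ R) (hc : 0 < c) (b1 : ∀ᵐ x ∂m, |b x| ≤ B) (b2 : ∀ᵐ x ∂m, C.Γ h h x ≤ Lh ^ 2)
    (b3 : ∀ᵐ x ∂m, C.Γ k k x ≤ Lk ^ 2) (b4 : ∀ᵐ x ∂m, ex L x ≤ R)
    (b5 : ∀ᵐ x ∂m, c ≤ ex F x) :
    |I (b * (ex L * ex F) * C.Γ h (C.Γ F k))| ≤
      √(I (ex L * C.Γ (ex F - 1) (ex F - 1))) *
        (Lk * Lh * √(R * I (C.Γ b b)) + B * Lk * Lh * √(I (ex L * C.Γ L L))
          + B * Lk * Lh * √(I (ex L * C.Γ (ex F - 1) (ex F - 1))) / c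
          + B * Lk * √(R * I (C.lap h ^ 2))) := by
  have hD := hC.toIsDir
  obtain ⟨wT, wΓ, -⟩ := ex_testI hC hB hF
  rw [t1_eq hC hB hb hL hF hh hk]
  set ω : M →ₘ[m] ℝ := ex F - 1 with hω
  have bA := hC.test_A hb.1
  have LA := hC.test_A hL.1
  have FA := hC.test_A hF.1
  have hA := hC.test_A hh.1
  have kA := hC.test_A hk.1
  have ωA := hC.test_A wT.1
  have et : MemLp (ex L) ∞ m := ex_top LA.2
  have e0 : 0 ≤ ex L := ex_nonneg L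
  have gωk : MemLp (C.Γ ω k) 2 m := hC.memLp _ (hC.Γ_mem hB wT.1 hk.1).1
  have gωh : MemLp (C.Γ ω h) 2 m := hC.memLp _ (hC.Γ_mem hB wT.1 hh.1).1
  have gbh : MemLp (C.Γ b h) 2 m := hC.memLp _ (hC.Γ_mem hB hb.1 hh.1).1
  have gLh : MemLp (C.Γ L h) 2 m := hC.memLp _ (hC.Γ_mem hB hL.1 hh.1).1
  have gFh : MemLp (C.Γ F h) 2 m := hC.memLp _ (hC.Γ_mem hB hF.1 hh.1).1
  have bω : MemLp (b * C.Γ ω k : M →ₘ[m] ℝ) 2 m := mem_mul_top bA.2 gωk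
  have hl := hC.test_isLap hh.1
  set A : ℝ := I (ex L * C.Γ ω ω) with hAdef
  set E : ℝ := I (ex L * C.Γ L L) with hEdef
  have A0 : 0 ≤ A := I_nonneg (mul_nonneg e0 (hC.nonneg _ ωA.1))
  have E0 : 0 ≤ E := I_nonneg (mul_nonneg e0 (hC.nonneg _ LA.1))
  have x1 : I (ex L * C.Γ ω k ^ 2) ≤ Lk ^ 2 * A :=
    w_mono e0 et gωk (hC.mem1 _ ωA.1) (Γ_sq_le hD ωA.1 kA.1 b3)
  have x2 : I (ex L * (b * C.Γ ω k) ^ 2) ≤ (B * Lk) ^ 2 * A := by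
    refine w_mono e0 et bω (hC.mem1 _ ωA.1) ?_
    filter_upwards [Γ_sq_le hD ωA.1 kA.1 b3, mul_ae b (C.Γ ω k), b1] with x a1 a2 a3
    rw [a2, mul_pow, mul_pow, mul_assoc]
    exact mul_le_mul (sq_le_sq' (by linarith [neg_abs_le (b x)]) ((le_abs_self _).trans a3)) a1
      (sq_nonneg _) (sq_nonneg _)
  have x3 : I (ex L * C.Γ b h ^ 2) ≤ Lh ^ 2 * R * I (C.Γ b b) :=
    w_mono_R e0 et gbh (hC.mem1 _ bA.1) (sq_nonneg _) (hC.nonneg _ bA.1) b4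
      (Γ_sq_le hD bA.1 hA.1 b2)
  have x4 : I (ex L * C.Γ L h ^ 2) ≤ Lh ^ 2 * E :=
    w_mono e0 et gLh (hC.mem1 _ LA.1) (Γ_sq_le hD LA.1 hA.1 b2)
  have x5 : I (ex L * C.Γ F h ^ 2) ≤ (Lh / c) ^ 2 * A := by
    refine w_mono e0 et gFh (hC.mem1 _ ωA.1) ?_
    have e5 : C.Γ ω h = ex F * C.Γ F h := wΓ _ hA.1
    have y1 := Γ_sq_le hD ωA.1 hA.1 b2
    rw [e5] at y1
    filter_upwards [y1, mul_ae (ex F) (C.Γ F h), b5] with x a1 a2 a3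
    rw [a2, mul_pow] at a1
    rw [div_pow, div_mul_eq_mul_div, le_div_iff₀ (by positivity)]
    refine le_trans ?_ a1
    rw [mul_comm]
    exact mul_le_mul_of_nonneg_right (pow_le_pow_left₀ hc.le a3 2) (sq_nonneg _)
  have x6 : I (ex L * C.lap h ^ 2) ≤ 1 * R * I (C.lap h ^ 2) := by
    refine w_mono_R e0 et hl.2.1 (mem_sq hl.2.1) zero_le_one (sq_nonneg' _) b4 ?_
    filter_upwards [sq_ae (C.lap h)] with x a1
    rw [a1, one_mul]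
  have y1 : √(I (ex L * C.Γ ω k ^ 2)) ≤ Lk * √A := by
    refine (Real.sqrt_le_sqrt x1).trans ?_
    rw [Real.sqrt_mul (sq_nonneg _), Real.sqrt_sq hLk]
  have y2 : √(I (ex L * (b * C.Γ ω k) ^ 2)) ≤ B * Lk * √A := by
    refine (Real.sqrt_le_sqrt x2).trans ?_
    rw [Real.sqrt_mul (sq_nonneg _), Real.sqrt_sq (by positivity)]
  have y3 : √(I (ex L * C.Γ b h ^ 2)) ≤ Lh * √(R * I (C.Γ b b)) := by
    refine (Real.sqrt_le_sqrt x3).trans ?_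
    rw [mul_assoc, Real.sqrt_mul (sq_nonneg _), Real.sqrt_sq hLh]
  have y4 : √(I (ex L * C.Γ L h ^ 2)) ≤ Lh * √E := by
    refine (Real.sqrt_le_sqrt x4).trans ?_
    rw [Real.sqrt_mul (sq_nonneg _), Real.sqrt_sq hLh]
  have y5 : √(I (ex L * C.Γ F h ^ 2)) ≤ Lh / c * √A := by
    refine (Real.sqrt_le_sqrt x5).trans ?_
    rw [Real.sqrt_mul (sq_nonneg _), Real.sqrt_sq (by positivity)]
  have y6 : √(I (ex L * C.lap h ^ 2)) ≤ √(R * I (C.lap h ^ 2)) := by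
    refine Real.sqrt_le_sqrt ?_
    rw [one_mul] at x6
    exact x6
  have z1 := (cs_w e0 et gωk gbh).trans (mul_le_mul y1 y3 (Real.sqrt_nonneg _) (by positivity))
  have z2 := (cs_w e0 et bω gLh).trans (mul_le_mul y2 y4 (Real.sqrt_nonneg _) (by positivity))
  have z3 := (cs_w e0 et bω gFh).trans (mul_le_mul y2 y5 (Real.sqrt_nonneg _) (by positivity))
  have z4 := (cs_w e0 et bω hl.2.1).trans (mul_le_mul y2 y6 (Real.sqrt_nonneg _) (by positivity))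
  rw [abs_neg]
  refine (abs_add_le _ _).trans ?_
  refine (add_le_add ((abs_add_le _ _).trans (add_le_add ((abs_add_le _ _).trans
    (add_le_add z1 z2)) z3)) z4).trans (le_of_eq ?_)
  ring

theorem quad_nonneg {P Q S t : ℝ} (hP : 0 ≤ P) (hQ : 0 ≤ Q) (h : S ^ 2 ≤ P * Q) :
    0 ≤ P + 2 * t * S + t ^ 2 * Q := by
  have h1 : (2 * t * S) ^ 2 ≤ (P + t ^ 2 * Q) ^ 2 := by
    nlinarith [mul_le_mul_of_nonneg_left h (sq_nonneg t), sq_nonneg (P - t ^ 2 * Q)]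
  have h2 := abs_le_of_sq_le_sq h1 (by positivity)
  linarith [neg_abs_le (2 * t * S)]

/-- Cauchy-Schwarz for `∫ ρ b ⟨∇u,∇v⟩` -/
theorem csΓ_w (hD : IsDir C) {ρ b u v : M →ₘ[m] ℝ} {B : ℝ} (h0 : 0 ≤ ρ) (hρ : MemLp ρ ∞ m)
    (hb : MemLp b ∞ m) (hB0 : 0 ≤ B) (hB : ∀ᵐ x ∂m, |b x| ≤ B) (hu : u ∈ C.W) (hv : v ∈ C.W) :
    |I (ρ * (b * C.Γ u v))| ≤ √(I (ρ * C.Γ u u)) * (B * √(I (ρ * C.Γ v v))) := by
  have m1 : MemLp (ρ * (b * C.Γ u v) : M →ₘ[m] ℝ) 1 m :=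
    mem_mul_top hρ (mem_mul_top hb (hD.Γ_mem1 hu hv))
  have m2 : MemLp (ρ * C.Γ u u : M →ₘ[m] ℝ) 1 m := mem_mul_top hρ (hD.mem1 _ hu)
  have m3 : MemLp (ρ * C.Γ v v : M →ₘ[m] ℝ) 1 m := mem_mul_top hρ (hD.mem1 _ hv)
  have A0 : 0 ≤ I (ρ * C.Γ u u) := I_nonneg (mul_nonneg h0 (hD.nonneg _ hu))
  have key : ∀ t : ℝ, 0 ≤ I (ρ * C.Γ u u) + 2 * t * (I (ρ * (b * C.Γ u v)))
      + t ^ 2 * (B ^ 2 * I (ρ * C.Γ v v)) := by
    intro t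
    have e : I (ρ * C.Γ u u) + 2 * t * (I (ρ * (b * C.Γ u v)))
      + t ^ 2 * (B ^ 2 * I (ρ * C.Γ v v)) = I (ρ * C.Γ u u + (2 * t) • (ρ * (b * C.Γ u v))
        + (t ^ 2 * B ^ 2) • (ρ * C.Γ v v)) := by
      rw [I_add (mem_add m2 (mem_smul _ m1)) (mem_smul _ m3), I_add m2 (mem_smul _ m1), I_smul,
        I_smul]
      ring
    rw [e]
    refine I_nonneg ?_
    rw [nonneg_iff_ae]
    filter_upwards [hD.Γ_cs_ae hu hv, hD.Γ_nonneg_ae hu, hD.Γ_nonneg_ae hv,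
      nonneg_iff_ae.1 h0, hB, mul_ae ρ (C.Γ u u), mul_ae ρ (b * C.Γ u v),
      mul_ae b (C.Γ u v), mul_ae ρ (C.Γ v v),
      add_ae (ρ * C.Γ u u + (2 * t) • (ρ * (b * C.Γ u v))) ((t ^ 2 * B ^ 2) • (ρ * C.Γ v v)),
      add_ae (ρ * C.Γ u u) ((2 * t) • (ρ * (b * C.Γ u v))),
      smul_ae (ρ * (b * C.Γ u v)) (2 * t), smul_ae (ρ * C.Γ v v) (t ^ 2 * B ^ 2)]
      with x c1 c2 c3 c4 c5 c6 c7 c8 c9 c10 c11 c12 c13
    rw [c10, c11, c12, c13, c6, c7, c8, c9]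
    have d1 : (b x * C.Γ u v x) ^ 2 ≤ (C.Γ u u x) * (B ^ 2 * C.Γ v v x) := by
      rw [mul_pow]
      calc b x ^ 2 * C.Γ u v x ^ 2 ≤ B ^ 2 * (C.Γ u u x * C.Γ v v x) :=
            mul_le_mul (sq_le_sq' (by linarith [neg_abs_le (b x)]) ((le_abs_self _).trans c5))
              c1 (sq_nonneg _) (sq_nonneg _)
        _ = _ := by ring
    have d2 := quad_nonneg (t := t) c2 (mul_nonneg (sq_nonneg B) c3) d1
    have d3 := mul_nonneg c4 d2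
    calc (0 : ℝ) ≤ _ := d3
      _ = _ := by ring
  have k3 := Real.abs_le_sqrt (disc_of_forall key)
  refine k3.trans (le_of_eq ?_)
  rw [Real.sqrt_mul A0, Real.sqrt_mul (sq_nonneg _), Real.sqrt_sq hB0]

theorem real_comb {I1 I2 I3 a E c B Lh Lk s1 s2 s3 s4 : ℝ} (ha : 0 ≤ a) (hE : 0 ≤ E)
    (hc : 0 < c) (hB : 0 ≤ B) (hh : 0 ≤ Lh) (hk : 0 ≤ Lk) (h1 : 0 ≤ s1) (h2 : 0 ≤ s2)
    (h3 : 0 ≤ s3) (h4 : 0 ≤ s4)
    (r1 : |I1| ≤ a * (Lk * Lh * s1 + B * Lk * Lh * E + B * Lk * Lh * a / c + B * Lk * s2))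
    (r2 : |I2| ≤ a * (Lh * Lk * s1 + B * Lh * Lk * E + B * Lh * Lk * a / c + B * Lh * s3))
    (r3 : |I3| ≤ a * (B * s4)) :
    |2⁻¹ * (I1 + I2 - I3)| ≤ (B * Lk * Lh + Lk * Lh * s1 + B * Lk * s2 + B * Lh * s3 + B * s4)
      * (a * (E + 1) + a ^ 2 / c) := by
  have p1 : 0 ≤ Lk * Lh * s1 := by positivity
  have p2 : 0 ≤ B * Lk * Lh := by positivity
  have p3 : 0 ≤ B * Lk * s2 := by positivity
  have p4 : 0 ≤ B * Lh * s3 := by positivity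
  have p5 : 0 ≤ B * s4 := by positivity
  have q1 : 0 ≤ a * E := by positivity
  have q2 : 0 ≤ a ^ 2 / c := by positivity
  have t1 := abs_le.1 r1
  have t2 := abs_le.1 r2
  have t3 := abs_le.1 r3
  have u1 : a * (Lk * Lh * s1 + B * Lk * Lh * E + B * Lk * Lh * a / c + B * Lk * s2)
      = (Lk * Lh * s1) * a + (B * Lk * Lh) * (a * E) + (B * Lk * Lh) * (a ^ 2 / c)
        + (B * Lk * s2) * a := by ring
  have u2 : a * (Lh * Lk * s1 + B * Lh * Lk * E + B * Lh * Lk * a / c + B * Lh * s3)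
      = (Lk * Lh * s1) * a + (B * Lk * Lh) * (a * E) + (B * Lk * Lh) * (a ^ 2 / c)
        + (B * Lh * s3) * a := by ring
  have u3 : a * (B * s4) = (B * s4) * a := by ring
  rw [u1] at t1
  rw [u2] at t2
  rw [u3] at t3
  set P1 := Lk * Lh * s1
  set P2 := B * Lk * Lh
  set P3 := B * Lk * s2
  set P4 := B * Lh * s3
  set P5 := B * s4
  set Q1 := a * E
  set Q2 := a ^ 2 / c
  have v : (P2 + P1 + P3 + P4 + P5) * (a * (E + 1) + Q2)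
      = P2 * Q1 + P2 * a + P2 * Q2 + (P1 * Q1 + P1 * a + P1 * Q2) + (P3 * Q1 + P3 * a + P3 * Q2)
        + (P4 * Q1 + P4 * a + P4 * Q2) + (P5 * Q1 + P5 * a + P5 * Q2) := by
    simp only [Q1]; ring
  have w1 := mul_nonneg p2 ha
  have w2 := mul_nonneg p2 q1
  have w3 := mul_nonneg p2 q2
  have w4 := mul_nonneg p1 ha
  have w5 := mul_nonneg p1 q1
  have w6 := mul_nonneg p1 q2
  have w7 := mul_nonneg p3 ha
  have w8 := mul_nonneg p3 q1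
  have w9 := mul_nonneg p3 q2
  have w10 := mul_nonneg p4 ha
  have w11 := mul_nonneg p4 q1
  have w12 := mul_nonneg p4 q2
  have w13 := mul_nonneg p5 ha
  have w14 := mul_nonneg p5 q1
  have w15 := mul_nonneg p5 q2
  rw [abs_le, v]
  constructor <;> linarith [t1.1, t1.2, t2.1, t2.2, t3.1, t3.2]

/-- `|∫ b ρ w Hess F (∇h,∇k)|`, where `ρ = exp L`, `w = exp F`. -/
theorem hessF_bd (hC : IsGamma C) {κ : ℝ} (hB : C.BEi κ) {b h k : M →ₘ[m] ℝ}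
    (hb : b ∈ C.TestI) (hh : h ∈ C.TestI) (hk : k ∈ C.TestI) (R : ℝ) :
    ∃ K : ℝ, 0 ≤ K ∧ ∀ L ∈ C.TestI, ∀ F ∈ C.TestI, (∀ᵐ x ∂m, ex L x ≤ R) → ∀ c : ℝ, 0 < c →
      (∀ᵐ x ∂m, c ≤ ex F x) →
      |I (b * (ex L * ex F) * C.hess F h k)| ≤
        K * (√(I (ex L * C.Γ (ex F - 1) (ex F - 1))) * (√(I (ex L * C.Γ L L)) + 1)
          + I (ex L * C.Γ (ex F - 1) (ex F - 1)) / c) := by
  have hD := hC.toIsDir
  obtain ⟨B', hB'⟩ := mem_top_iff.1 (hC.test_A hb.1).2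
  obtain ⟨H, hH⟩ := mem_top_iff.1 (hC.test_Γ_top hh.1)
  obtain ⟨G, hG⟩ := mem_top_iff.1 (hC.test_Γ_top hk.1)
  have b1 : ∀ᵐ x ∂m, |b x| ≤ |B'| := by
    filter_upwards [hB'] with x a1 using a1.trans (le_abs_self _)
  have b2 : ∀ᵐ x ∂m, C.Γ h h x ≤ √|H| ^ 2 := by
    filter_upwards [hH] with x a1
    rw [Real.sq_sqrt (abs_nonneg _)]
    exact (le_abs_self _).trans (a1.trans (le_abs_self _))
  have b3 : ∀ᵐ x ∂m, C.Γ k k x ≤ √|G| ^ 2 := by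
    filter_upwards [hG] with x a1
    rw [Real.sq_sqrt (abs_nonneg _)]
    exact (le_abs_self _).trans (a1.trans (le_abs_self _))
  have hhk := hC.Γ_mem hB hh.1 hk.1
  refine ⟨|B'| * √|G| * √|H| + √|G| * √|H| * √(|R| * I (C.Γ b b))
    + |B'| * √|G| * √(|R| * I (C.lap h ^ 2)) + |B'| * √|H| * √(|R| * I (C.lap k ^ 2))
    + |B'| * √(|R| * I (C.Γ (C.Γ h k) (C.Γ h k))), by positivity, ?_⟩
  intro L hL F hF bR c hc bc
  obtain ⟨wT, wΓ, -⟩ := ex_testI hC hB hF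
  have b4 : ∀ᵐ x ∂m, ex L x ≤ |R| := by
    filter_upwards [bR] with x a1 using a1.trans (le_abs_self _)
  have r1 := t1_bd hC hB hb hL hF hh hk (abs_nonneg _) (Real.sqrt_nonneg _) (Real.sqrt_nonneg _)
    (abs_nonneg _) hc b1 b2 b3 b4 bc
  have r2 := t1_bd hC hB hb hL hF hk hh (abs_nonneg _) (Real.sqrt_nonneg _) (Real.sqrt_nonneg _)
    (abs_nonneg _) hc b1 b3 b2 b4 bc
  set ω : M →ₘ[m] ℝ := ex F - 1 with hω
  have bA := hC.test_A hb.1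
  have LA := hC.test_A hL.1
  have FA := hC.test_A hF.1
  have hA := hC.test_A hh.1
  have kA := hC.test_A hk.1
  have ωA := hC.test_A wT.1
  have et : MemLp (ex L) ∞ m := ex_top LA.2
  have ft : MemLp (ex F) ∞ m := ex_top FA.2
  have e0 : 0 ≤ ex L := ex_nonneg L
  have A0 : 0 ≤ I (ex L * C.Γ ω ω) := I_nonneg (mul_nonneg e0 (hC.nonneg _ ωA.1))
  have q3 : b * (ex L * ex F) * C.Γ F (C.Γ h k) = ex L * (b * C.Γ ω (C.Γ h k)) := by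
    rw [wΓ _ hhk.1]; ring
  have r3 : |I (b * (ex L * ex F) * C.Γ F (C.Γ h k))| ≤
      √(I (ex L * C.Γ ω ω)) * (|B'| * √(|R| * I (C.Γ (C.Γ h k) (C.Γ h k)))) := by
    rw [q3]
    refine (csΓ_w hD e0 et bA.2 (abs_nonneg _) b1 ωA.1 hhk.1).trans ?_
    refine mul_le_mul_of_nonneg_left (mul_le_mul_of_nonneg_left ?_ (abs_nonneg _))
      (Real.sqrt_nonneg _)
    refine Real.sqrt_le_sqrt ?_
    rw [← I_smul]
    refine I_mono (mem_mul_top et (hC.mem1 _ hhk.1)) (mem_smul _ (hC.mem1 _ hhk.1)) ?_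
    rw [le_iff_ae]
    filter_upwards [mul_ae (ex L) (C.Γ (C.Γ h k) (C.Γ h k)), smul_ae (C.Γ (C.Γ h k) (C.Γ h k)) |R|,
      b4, hD.Γ_nonneg_ae hhk.1] with x c1 c2 c3 c4
    rw [c1, c2]
    exact mul_le_mul_of_nonneg_right c3 c4
  -- the sum
  have hFk := hC.Γ_mem hB hF.1 hk.1
  have hFh := hC.Γ_mem hB hF.1 hh.1
  have Wt : MemLp (b * (ex L * ex F) : M →ₘ[m] ℝ) ∞ m :=
    mem_mul_top bA.2 (mem_mul_top et ft)
  have n1 : MemLp (b * (ex L * ex F) * C.Γ h (C.Γ F k) : M →ₘ[m] ℝ) 1 m :=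
    mem_mul_top Wt (hD.Γ_mem1 hA.1 hFk.1)
  have n2 : MemLp (b * (ex L * ex F) * C.Γ k (C.Γ F h) : M →ₘ[m] ℝ) 1 m :=
    mem_mul_top Wt (hD.Γ_mem1 kA.1 hFh.1)
  have n3 : MemLp (b * (ex L * ex F) * C.Γ F (C.Γ h k) : M →ₘ[m] ℝ) 1 m :=
    mem_mul_top Wt (hD.Γ_mem1 FA.1 hhk.1)
  have e : b * (ex L * ex F) * C.hess F h k
      = (2 : ℝ)⁻¹ • (b * (ex L * ex F) * C.Γ h (C.Γ F k) + b * (ex L * ex F) * C.Γ k (C.Γ F h)
        - b * (ex L * ex F) * C.Γ F (C.Γ h k)) := by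
    unfold Calc.hess
    algebra
  rw [e, I_smul, I_sub (mem_add n1 n2) n3, I_add n1 n2]
  have fin := real_comb (Real.sqrt_nonneg _) (Real.sqrt_nonneg (I (ex L * C.Γ L L))) hc
    (abs_nonneg B') (Real.sqrt_nonneg |H|) (Real.sqrt_nonneg |G|) (Real.sqrt_nonneg _)
    (Real.sqrt_nonneg _) (Real.sqrt_nonneg _) (Real.sqrt_nonneg _) r1 r2 r3
  rw [Real.sq_sqrt A0] at fin
  exact fin

/-- B8, static part: the Hessians of the two potentials `θ` and `θ + (ε/2) F` differ by a quantity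
that is controlled by `ε E |∇ω|²`, `ω = exp F - 1`, and `ε E |∇L|²`. -/
theorem b8_stat (hC : IsGamma C) {κ : ℝ} (hB : C.BEi κ) {b h k : M →ₘ[m] ℝ}
    (hb : b ∈ C.TestI) (hh : h ∈ C.TestI) (hk : k ∈ C.TestI) (R : ℝ) :
    ∃ K : ℝ, 0 ≤ K ∧ ∀ ε : ℝ, 0 < ε → ∀ L ∈ C.TestI, ∀ F ∈ C.TestI, ∀ θ ∈ C.TestI,
      (∀ᵐ x ∂m, ex L x ≤ R) → ∀ c : ℝ, 0 < c → (∀ᵐ x ∂m, c ≤ ex F x) →
      |I (b * (ex L * ex F) * (C.hess (θ + (ε / 2) • F) h k - C.hess θ h k))| ≤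
        K * (√(ε * I (ex L * C.Γ (ex F - 1) (ex F - 1))) * (√(ε * I (ex L * C.Γ L L)) + √ε)
          + ε * I (ex L * C.Γ (ex F - 1) (ex F - 1)) / c) := by
  have hD := hC.toIsDir
  obtain ⟨K, hK, H⟩ := hessF_bd hC hB hb hh hk R
  refine ⟨K, hK, fun ε hε L hL F hF θ hθ bR c hc bc => ?_⟩
  have h1 := H L hL F hF bR c hc bc
  have FA := hC.test_A hF.1
  have hA := hC.test_A hh.1
  have kA := hC.test_A hk.1
  have θA := hC.test_A hθ.1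
  have hFk := hC.Γ_mem hB hF.1 hk.1
  have hFh := hC.Γ_mem hB hF.1 hh.1
  have hθk := hC.Γ_mem hB hθ.1 hk.1
  have hθh := hC.Γ_mem hB hθ.1 hh.1
  have hhk := hC.Γ_mem hB hh.1 hk.1
  have eF := hC.smul_mem (ε / 2) _ FA.1
  have e1 : C.hess (θ + (ε / 2) • F) h k = C.hess θ h k + (ε / 2) • C.hess F h k := by
    unfold Calc.hess
    rw [hC.add_left _ θA.1 _ eF _ hA.1, hC.add_left _ θA.1 _ eF _ kA.1,
      hC.add_left _ θA.1 _ eF _ hhk.1, hC.smul_left _ _ FA.1 _ hA.1, hC.smul_left _ _ FA.1 _ kA.1,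
      hC.smul_left _ _ FA.1 _ hhk.1, hD.Γ_add_right hA.1 hθk.1 (hC.smul_mem _ _ hFk.1),
      hD.Γ_add_right kA.1 hθh.1 (hC.smul_mem _ _ hFh.1), hD.Γ_smul_right _ hA.1 hFk.1,
      hD.Γ_smul_right _ kA.1 hFh.1]
    algebra
  have e2 : b * (ex L * ex F) * (C.hess (θ + (ε / 2) • F) h k - C.hess θ h k)
      = (ε / 2) • (b * (ex L * ex F) * C.hess F h k) := by
    rw [e1]; algebra
  rw [e2, I_smul, abs_mul, abs_of_pos (by positivity : 0 < ε / 2)]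
  set A : ℝ := I (ex L * C.Γ (ex F - 1) (ex F - 1)) with hA
  set E : ℝ := I (ex L * C.Γ L L) with hE
  obtain ⟨wT, -, -⟩ := ex_testI hC hB hF
  have A0 : 0 ≤ A := I_nonneg (mul_nonneg (ex_nonneg L) (hC.nonneg _ (hC.test_A wT.1).1))
  have s1 : √(ε * A) = √ε * √A := Real.sqrt_mul hε.le _
  have s2 : √(ε * E) = √ε * √E := Real.sqrt_mul hε.le _
  have s3 : √ε * √ε = ε := Real.mul_self_sqrt hε.le
  have x0 : 0 ≤ √A * (√E + 1) + A / c := by positivity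
  have key : √(ε * A) * (√(ε * E) + √ε) + ε * A / c = ε * (√A * (√E + 1) + A / c) := by
    rw [s1, s2]
    calc √ε * √A * (√ε * √E + √ε) + ε * A / c
        = (√ε * √ε) * (√A * (√E + 1)) + ε * A / c := by ring
      _ = ε * (√A * (√E + 1)) + ε * A / c := by rw [s3]
      _ = _ := by ring
  rw [key]
  calc ε / 2 * |I (b * (ex L * ex F) * C.hess F h k)|
      ≤ ε / 2 * (K * (√A * (√E + 1) + A / c)) := mul_le_mul_of_nonneg_left h1 (by positivity)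
    _ = (K * (ε * (√A * (√E + 1) + A / c))) / 2 := by ring
    _ ≤ K * (ε * (√A * (√E + 1) + A / c)) := by
        have : 0 ≤ K * (ε * (√A * (√E + 1) + A / c)) := by positivity
        linarith

end Vale.Agent.P233.H343
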